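import Vale.Agent.P088.R2.H551.V.Spec

/-!
# P088, row WS: subrows

`RowWSR` is `RowWS` for real systems (`WS1` is `RowWSR → RowWS`), `RowCF` collects the properties of
the coefficients after the change of variables `X = 2/3 (x + w x)`.
-/

open MeasureTheory Set
open scoped ContDiff Matrix

noncomputable section

namespace Vale.Agent.P088.PJ.H904

open Vale.Agent.P088.LR
open Vale.Agent.P088.HY (VV Bs Bn Un DB Co CoOk Com LxG LyG)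

variable {n m N : ℕ}

/-- Coefficients without zero order terms. -/
def e0 (b : Fin n → V n → Matrix (Fin m) (Fin m) ℝ) : Co n m := ⟨b, fun _ => 0⟩

/-- Smooth coefficients near `(1, 0)`, real version. -/
structure CoR (k : ℕ) (δ : ℝ) (s : MF n) (b : Fin n → V n → Matrix (Fin m) (Fin m) ℝ) :
    Prop where
  sm : SmM s
  sy : ∀ x, (s x).IsSymm
  one : ∀ x, 1 < HY.sq x → s x = 1
  cl : ∀ i j, Cl k δ (fun x => s x i j - (1 : Matrix (Fin n) (Fin n) ℝ) i j)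
  sb : ∀ i p q, ContDiff ℝ ∞ (fun x => b i x p q)
  cb : ∀ i p q, Cl k δ (fun x => b i x p q)

/-- (WSR) `RowWS` for real systems. -/
def RowWSR : Prop := ∀ n m : ℕ, 3 ≤ n → ∃ (k : ℕ) (C c δ₀ τ₀ : ℝ), 0 < C ∧ 0 < c ∧ 0 < δ₀ ∧
  0 < τ₀ ∧ ∀ (s₁ s₂ : MF n) (b₁ b₂ : Fin n → V n → Matrix (Fin m) (Fin m) ℝ),
  CoR k δ₀ s₁ b₁ → CoR k δ₀ s₂ b₂ → (∀ i j x y, b₁ i x * b₂ j y = b₂ j y * b₁ i x) →
  ∀ η τ : ℝ, 0 ≤ η → DB k η s₁ s₂ → τ₀ ≤ τ → τ * η ≤ δ₀ →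
  ∀ F₁ F₂ : Fin m → VV n → ℝ, (∀ p, ContDiff ℝ ∞ (F₁ p)) → (∀ p, ContDiff ℝ ∞ (F₂ p)) →
  (∀ z ∈ Us n (7 / 4), ∀ p, LyG s₂ (e0 b₂) F₁ p z = LxG s₁ (e0 b₁) F₂ p z) →
  (∀ z : VV n, z.2 ∉ bl0 n → ∀ p, F₁ p z = 0 ∧ F₂ p z = 0) →
  ∃ w : Fin m → VV n → ℝ, (∀ p, ContDiffOn ℝ ∞ (w p) (Un n)) ∧
    (∀ z ∈ Un n, ∀ p, LxG s₁ (e0 b₁) w p z = F₁ p z) ∧
    (∀ z ∈ Un n, ∀ p, LyG s₂ (e0 b₂) w p z = F₂ p z) ∧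
    IntegrableOn (fun z => ∑ p, w p z ^ 2) {z ∈ Un n | τ * HY.sq (z.1 - z.2) ≤ 16 * n} ∧
    ∫ z in {z ∈ Un n | τ * HY.sq (z.1 - z.2) ≤ 16 * n}, ∑ p, w p z ^ 2 ≤
      C / τ * ∫ z in Us n (7 / 4), (∑ p, F₁ p z ^ 2 + ∑ p, F₂ p z ^ 2) *
        Real.exp (-(c * τ * HY.sq (z.1 - z.2)))

/-- (WS1) the dictionary complex matrices / real vectors. -/
def RowWS1 : Prop := RowWSR → RowWS

/-! ## The coefficients in the new coordinates `X = 2/3 (x + w x)` -/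

/-- The tensor in the new coordinates. -/
def pT (s : MF n) (w K : V n → V n) : MF n := fun X => psh s w K ((3 / 2 : ℝ) • X)

/-- The first order coefficients in the old variable, direction `a`. -/
def bO (s : MF n) (w : V n → V n) (b : Fin n → V n → Matrix (Fin m) (Fin m) ℝ) (a : Fin n)
    (x : V n) : Matrix (Fin m) (Fin m) ℝ :=
  ((3 / 2 : ℝ) * (jm w x).det⁻¹) •
    ((∑ i, ∑ j, s x i j * pd i (fun y => jm w y a j) x) • (1 : Matrix (Fin m) (Fin m) ℝ)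
      + ∑ i, jm w x a i • b i x)

/-- The first order coefficients in the new coordinates. -/
def bT (s : MF n) (w K : V n → V n) (b : Fin n → V n → Matrix (Fin m) (Fin m) ℝ) (a : Fin n)
    (X : V n) : Matrix (Fin m) (Fin m) ℝ := bO s w b a (K ((3 / 2 : ℝ) • X))

/-- (CF) bounds of the coefficients in the new coordinates. -/
def RowCF : Prop := ∀ n m : ℕ, ∃ C δ₀ : ℝ, 0 < C ∧ 0 < δ₀ ∧ ∀ δ : ℝ, 0 ≤ δ → δ ≤ δ₀ →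
  ∀ (s₁ s₂ : MF n) (w₁ w₂ K₁ K₂ : V n → V n) (b : Fin n → V n → Matrix (Fin m) (Fin m) ℝ),
  SmM s₁ → SmM s₂ → Dif univ w₁ K₁ → Dif univ w₂ K₂ →
  (∀ i j, Cl 8 δ (fun x => s₁ x i j - (1 : Matrix (Fin n) (Fin n) ℝ) i j)) →
  (∀ i j, Cl 8 δ (fun x => s₂ x i j - (1 : Matrix (Fin n) (Fin n) ℝ) i j)) →
  Cl 8 δ w₁ → Cl 8 δ w₂ → (∀ i p q, ContDiff ℝ ∞ (fun x => b i x p q)) →
  (∀ i p q, Cl 8 δ (fun x => b i x p q)) →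
  (∀ i j, Cl 3 (C * δ) (fun x => pT s₁ w₁ K₁ x i j - (1 : Matrix (Fin n) (Fin n) ℝ) i j)) ∧
  (∀ i p q, Cl 3 (C * δ) (fun x => bT s₁ w₁ K₁ b i x p q)) ∧
  ∀ η : ℝ, 0 ≤ η → DB 8 η s₁ s₂ → Cl 8 η (fun x => w₁ x - w₂ x) →
    DB 3 (C * η) (pT s₁ w₁ K₁) (pT s₂ w₂ K₂)

/-! ## The change of variables on pairs -/

/-- `(x, y) ↦ (2/3 (x + w₁ x), 2/3 (y + w₂ y))`. -/
def Ph (w₁ w₂ : V n → V n) (z : VV n) : VV n :=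
  ((2 / 3 : ℝ) • (z.1 + w₁ z.1), (2 / 3 : ℝ) • (z.2 + w₂ z.2))

/-- The inverse map. -/
def Ps (K₁ K₂ : V n → V n) (Z : VV n) : VV n := (K₁ ((3 / 2 : ℝ) • Z.1), K₂ ((3 / 2 : ℝ) • Z.2))

/-- (GG) elementary geometry of the maps. -/
def RowGG : Prop := ∀ n : ℕ, ∃ δ₀ : ℝ, 0 < δ₀ ∧ ∀ w K : V n → V n, Dif univ w K → Cl 1 δ₀ w →
  (∀ x ∈ Bn n, 1 / 5 ≤ HY.rr ((2 / 3 : ℝ) • (x + w x))) ∧
  (∀ x ∈ Bn n, (2 / 3 : ℝ) • (x + w x) ∈ Bn n) ∧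
  (∀ X ∈ Bn n, K ((3 / 2 : ℝ) • X) ∈ Bs n (7 / 4))

/-- (MM) the change of variables distorts integrals of nonnegative functions by bounded factors. -/
def RowMM : Prop := ∀ n : ℕ, ∃ C δ₀ : ℝ, 0 < C ∧ 0 < δ₀ ∧ ∀ w₁ w₂ K₁ K₂ : V n → V n,
  Dif univ w₁ K₁ → Dif univ w₂ K₂ → Cl 1 δ₀ w₁ → Cl 1 δ₀ w₂ →
  (∀ g : VV n → ℝ, (∀ z ∈ Us n (7 / 4), 0 ≤ g z) → IntegrableOn g (Us n (7 / 4)) →
    IntegrableOn (fun Z => g (Ps K₁ K₂ Z)) (Un n) ∧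
    ∫ Z in Un n, g (Ps K₁ K₂ Z) ≤ C * ∫ z in Us n (7 / 4), g z) ∧
  (∀ G : VV n → ℝ, (∀ Z ∈ Un n, 0 ≤ G Z) → IntegrableOn G (Un n) →
    ∀ R ⊆ Un n, MeasurableSet R → IntegrableOn (fun z => G (Ph w₁ w₂ z)) R ∧
    ∫ z in R, G (Ph w₁ w₂ z) ≤ C * ∫ Z in Un n, G Z)

/-- (WT) the weight in the old and the new coordinates. -/
def RowWT : Prop := ∀ n : ℕ, ∃ C c δ₀ : ℝ, 0 < C ∧ 0 < c ∧ 0 < δ₀ ∧
  ∀ w₁ w₂ K₁ K₂ : V n → V n, Dif univ w₁ K₁ → Dif univ w₂ K₂ → Cl 1 δ₀ w₁ → Cl 1 δ₀ w₂ →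
  ∀ η τ : ℝ, 0 ≤ η → (∀ x, ‖w₁ x - w₂ x‖ ≤ η) → 1 ≤ τ → τ * η ≤ 1 →
  (∀ Z ∈ Un n, (Ps K₁ K₂ Z).2 ∈ bl0 n →
    HY.rr Z.1 ^ 4 * HY.wT τ Z ≤
      C * Real.exp (-(c * τ * HY.sq ((Ps K₁ K₂ Z).1 - (Ps K₁ K₂ Z).2))) ∧
    HY.rr Z.2 ^ 4 * HY.wT τ Z ≤
      C * Real.exp (-(c * τ * HY.sq ((Ps K₁ K₂ Z).1 - (Ps K₁ K₂ Z).2)))) ∧
  (∀ z ∈ Un n, τ * HY.sq (z.1 - z.2) ≤ 16 * n → 1 ≤ C * HY.wT τ (Ph w₁ w₂ z))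

end Vale.Agent.P088.PJ.H904
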