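import Vale.Agent.P088.H198.Defs
import Vale.Agent.P088.H72.Norm
import Vale.Agent.P088.H634.Dif

/-!
# P088, row WS: calculus of pairs of functions

`PQ η k f g`: the families `f`, `g` are smooth, bounded in `C^k` and `f - g` is `O(η)` in `C^k`,
uniformly in the parameter.
-/

open MeasureTheory Set
open scoped ContDiff Matrix

noncomputable section

namespace Vale.Agent.P088.PJ.H904

open Vale.Agent.P088.LR

variable {n m : ℕ} {ι : Type*} {η : ι → ℝ}

/-- Bounded in `C^k` with difference `O(η)` in `C^k`, by recursion over partial derivatives. -/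
def UQ (η : ι → ℝ) : ℕ → (ι → V n → ℝ) → (ι → V n → ℝ) → Prop
  | 0, f, g => ∃ B, 0 ≤ B ∧ ∀ t x, |f t x| ≤ B ∧ |g t x| ≤ B ∧ |f t x - g t x| ≤ B * η t
  | k + 1, f, g => (∃ B, 0 ≤ B ∧ ∀ t x, |f t x| ≤ B ∧ |g t x| ≤ B ∧ |f t x - g t x| ≤ B * η t) ∧
      ∀ i, UQ η k (fun t => pd i (f t)) (fun t => pd i (g t))

/-- Smooth families, bounded in `C^k` with difference `O(η)`. -/
structure PQ (η : ι → ℝ) (k : ℕ) (f g : ι → V n → ℝ) : Prop where
  sf : ∀ t, ContDiff ℝ ∞ (f t)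
  sg : ∀ t, ContDiff ℝ ∞ (g t)
  q : UQ η k f g

theorem pd_add' {f g : V n → ℝ} (hf : ContDiff ℝ ∞ f) (hg : ContDiff ℝ ∞ g) (i : Fin n) :
    pd i (fun x => f x + g x) = fun x => pd i f x + pd i g x := by
  funext x
  unfold pd
  rw [show (fun x => f x + g x) = f + g from rfl, fderiv_add (hf.differentiable (by simp) x)
    (hg.differentiable (by simp) x)]
  rfl

theorem pd_mul' {f g : V n → ℝ} (hf : ContDiff ℝ ∞ f) (hg : ContDiff ℝ ∞ g) (i : Fin n) :
    pd i (fun x => f x * g x) = fun x => pd i f x * g x + f x * pd i g x := by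
  funext x
  unfold pd
  have h := ((hf.differentiable (by simp) x).hasFDerivAt.mul
    (hg.differentiable (by simp) x).hasFDerivAt).fderiv
  have h2 : (fun x => f x * g x) = f * g := rfl
  rw [h2, h]
  simp only [ContinuousLinearMap.add_apply, ContinuousLinearMap.smul_apply, smul_eq_mul]
  ring

theorem pd_const' (c : ℝ) (i : Fin n) : pd i (fun _ : V n => c) = fun _ => 0 := by
  funext x
  unfold pd
  simp

theorem cd_pd {f : V n → ℝ} (hf : ContDiff ℝ ∞ f) (i : Fin n) : ContDiff ℝ ∞ (pd i f) := by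
  have h1 : ContDiff ℝ ∞ (fderiv ℝ f) := hf.fderiv_right (by simp)
  exact h1.clm_apply contDiff_const

theorem UQ.base {k : ℕ} {f g : ι → V n → ℝ} (h : UQ η k f g) :
    ∃ B, 0 ≤ B ∧ ∀ t x, |f t x| ≤ B ∧ |g t x| ≤ B ∧ |f t x - g t x| ≤ B * η t := by
  cases k with
  | zero => exact h
  | succ k => exact h.1

theorem UQ.mono {k : ℕ} : ∀ {f g : ι → V n → ℝ}, UQ η (k + 1) f g → UQ η k f g := by
  induction k with
  | zero => exact fun h => h.1
  | succ k ih => exact fun h => ⟨h.1, fun i => ih (h.2 i)⟩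

theorem PQ.mono {k : ℕ} {f g : ι → V n → ℝ} (h : PQ η (k + 1) f g) : PQ η k f g :=
  ⟨h.sf, h.sg, h.q.mono⟩

theorem PQ.le {k l : ℕ} (hl : l ≤ k) {f g : ι → V n → ℝ} (h : PQ η k f g) : PQ η l f g := by
  induction hl with
  | refl => exact h
  | step _ ih => exact ih h.mono

theorem PQ.pd {k : ℕ} {f g : ι → V n → ℝ} (h : PQ η (k + 1) f g) (i : Fin n) :
    PQ η k (fun t => LR.pd i (f t)) (fun t => LR.pd i (g t)) :=
  ⟨fun t => cd_pd (h.sf t) i, fun t => cd_pd (h.sg t) i, h.q.2 i⟩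

theorem PQ.mk' {k : ℕ} {f g : ι → V n → ℝ} (hf : ∀ t, ContDiff ℝ ∞ (f t))
    (hg : ∀ t, ContDiff ℝ ∞ (g t))
    (h0 : ∃ B, 0 ≤ B ∧ ∀ t x, |f t x| ≤ B ∧ |g t x| ≤ B ∧ |f t x - g t x| ≤ B * η t)
    (h : ∀ i, PQ η k (fun t => LR.pd i (f t)) (fun t => LR.pd i (g t))) : PQ η (k + 1) f g :=
  ⟨hf, hg, h0, fun i => (h i).q⟩

theorem PQ.congr {k : ℕ} {f g f' g' : ι → V n → ℝ} (h : PQ η k f g) (e1 : ∀ t x, f' t x = f t x)
    (e2 : ∀ t x, g' t x = g t x) : PQ η k f' g' := by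
  have h1 : f' = f := funext fun t => funext fun x => e1 t x
  have h2 : g' = g := funext fun t => funext fun x => e2 t x
  rw [h1, h2]; exact h

variable (hη : ∀ t, 0 ≤ η t)

include hη in
theorem PQ.const {k : ℕ} (c : ℝ) : PQ η k (fun _ (_ : V n) => c) (fun _ _ => c) := by
  induction k generalizing c with
  | zero =>
    refine ⟨fun _ => contDiff_const, fun _ => contDiff_const, |c|, abs_nonneg _, fun t x =>
      ⟨le_refl _, le_refl _, ?_⟩⟩
    rw [sub_self, abs_zero]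
    exact mul_nonneg (abs_nonneg _) (hη t)
  | succ k ih =>
    refine PQ.mk' (fun _ => contDiff_const) (fun _ => contDiff_const) ⟨|c|, abs_nonneg _,
      fun t x => ⟨le_refl _, le_refl _, ?_⟩⟩ fun i => (ih 0).congr (fun t x => ?_) fun t x => ?_
    · rw [sub_self, abs_zero]
      exact mul_nonneg (abs_nonneg _) (hη t)
    · rw [pd_const']
    · rw [pd_const']

theorem PQ.add {k : ℕ} : ∀ {f g f' g' : ι → V n → ℝ}, PQ η k f g → PQ η k f' g' →
    PQ η k (fun t x => f t x + f' t x) (fun t x => g t x + g' t x) := by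
  have base : ∀ {f g f' g' : ι → V n → ℝ},
      (∃ B, 0 ≤ B ∧ ∀ t x, |f t x| ≤ B ∧ |g t x| ≤ B ∧ |f t x - g t x| ≤ B * η t) →
      (∃ B, 0 ≤ B ∧ ∀ t x, |f' t x| ≤ B ∧ |g' t x| ≤ B ∧ |f' t x - g' t x| ≤ B * η t) →
      ∃ B, 0 ≤ B ∧ ∀ t x, |f t x + f' t x| ≤ B ∧ |g t x + g' t x| ≤ B ∧
        |f t x + f' t x - (g t x + g' t x)| ≤ B * η t := by
    rintro f g f' g' ⟨B, hB, h⟩ ⟨B', hB', h'⟩
    refine ⟨B + B', by positivity, fun t x => ⟨?_, ?_, ?_⟩⟩
    · exact (abs_add_le _ _).trans (add_le_add (h t x).1 (h' t x).1)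
    · exact (abs_add_le _ _).trans (add_le_add (h t x).2.1 (h' t x).2.1)
    · have e : f t x + f' t x - (g t x + g' t x) = (f t x - g t x) + (f' t x - g' t x) := by ring
      rw [e, add_mul]
      exact (abs_add_le _ _).trans (add_le_add (h t x).2.2 (h' t x).2.2)
  induction k with
  | zero => exact fun h h' => ⟨fun t => (h.sf t).add (h'.sf t), fun t => (h.sg t).add (h'.sg t),
      base h.q h'.q⟩
  | succ k ih =>
    intro f g f' g' h h'
    refine PQ.mk' (fun t => (h.sf t).add (h'.sf t)) (fun t => (h.sg t).add (h'.sg t))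
      (base h.q.base h'.q.base) fun i => (ih (h.pd i) (h'.pd i)).congr (fun t x => ?_) fun t x => ?_
    · rw [pd_add' (h.sf t) (h'.sf t)]
    · rw [pd_add' (h.sg t) (h'.sg t)]

include hη in
theorem PQ.mul {k : ℕ} : ∀ {f g f' g' : ι → V n → ℝ}, PQ η k f g → PQ η k f' g' →
    PQ η k (fun t x => f t x * f' t x) (fun t x => g t x * g' t x) := by
  have base : ∀ {f g f' g' : ι → V n → ℝ},
      (∃ B, 0 ≤ B ∧ ∀ t x, |f t x| ≤ B ∧ |g t x| ≤ B ∧ |f t x - g t x| ≤ B * η t) →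
      (∃ B, 0 ≤ B ∧ ∀ t x, |f' t x| ≤ B ∧ |g' t x| ≤ B ∧ |f' t x - g' t x| ≤ B * η t) →
      ∃ B, 0 ≤ B ∧ ∀ t x, |f t x * f' t x| ≤ B ∧ |g t x * g' t x| ≤ B ∧
        |f t x * f' t x - g t x * g' t x| ≤ B * η t := by
    rintro f g f' g' ⟨B, hB, h⟩ ⟨B', hB', h'⟩
    refine ⟨2 * (B * B'), by positivity, fun t x => ⟨?_, ?_, ?_⟩⟩
    · rw [abs_mul]
      have := mul_le_mul (h t x).1 (h' t x).1 (abs_nonneg _) hB
      nlinarith [mul_nonneg hB hB']
    · rw [abs_mul]
      have := mul_le_mul (h t x).2.1 (h' t x).2.1 (abs_nonneg _) hB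
      nlinarith [mul_nonneg hB hB']
    · have e : f t x * f' t x - g t x * g' t x =
          (f t x - g t x) * f' t x + g t x * (f' t x - g' t x) := by ring
      rw [e]
      refine (abs_add_le _ _).trans ?_
      rw [abs_mul, abs_mul]
      have h1 := mul_le_mul (h t x).2.2 (h' t x).1 (abs_nonneg _) (mul_nonneg hB (hη t))
      have h2 := mul_le_mul (h t x).2.1 (h' t x).2.2 (abs_nonneg _) hB
      nlinarith
  induction k with
  | zero => exact fun h h' => ⟨fun t => (h.sf t).mul (h'.sf t), fun t => (h.sg t).mul (h'.sg t),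
      base h.q h'.q⟩
  | succ k ih =>
    intro f g f' g' h h'
    refine PQ.mk' (fun t => (h.sf t).mul (h'.sf t)) (fun t => (h.sg t).mul (h'.sg t))
      (base h.q.base h'.q.base) fun i =>
        ((ih (h.pd i) h'.mono).add (ih h.mono (h'.pd i))).congr (fun t x => ?_) fun t x => ?_
    · rw [pd_mul' (h.sf t) (h'.sf t)]
    · rw [pd_mul' (h.sg t) (h'.sg t)]

include hη in
theorem PQ.sum {k : ℕ} {J : Type*} (S : Finset J) {f g : J → ι → V n → ℝ}
    (h : ∀ j, PQ η k (f j) (g j)) :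
    PQ η k (fun t x => ∑ j ∈ S, f j t x) (fun t x => ∑ j ∈ S, g j t x) := by
  classical
  induction S using Finset.induction_on with
  | empty => simpa using PQ.const hη (k := k) (n := n) (0 : ℝ)
  | insert a S ha ih =>
    refine ((h a).add ih).congr (fun t x => ?_) fun t x => ?_
    · rw [Finset.sum_insert ha]
    · rw [Finset.sum_insert ha]

include hη in
theorem PQ.prod {k : ℕ} {J : Type*} (S : Finset J) {f g : J → ι → V n → ℝ}
    (h : ∀ j, PQ η k (f j) (g j)) :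
    PQ η k (fun t x => ∏ j ∈ S, f j t x) (fun t x => ∏ j ∈ S, g j t x) := by
  classical
  induction S using Finset.induction_on with
  | empty => simpa using PQ.const hη (k := k) (n := n) (1 : ℝ)
  | insert a S ha ih =>
    refine (PQ.mul hη (h a) ih).congr (fun t x => ?_) fun t x => ?_
    · rw [Finset.prod_insert ha]
    · rw [Finset.prod_insert ha]

include hη in
theorem PQ.cmul {k : ℕ} (c : ℝ) {f g : ι → V n → ℝ} (h : PQ η k f g) :
    PQ η k (fun t x => c * f t x) (fun t x => c * g t x) :=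
  PQ.mul hη (PQ.const hη c) h

include hη in
theorem PQ.sub {k : ℕ} {f g f' g' : ι → V n → ℝ} (h : PQ η k f g) (h' : PQ η k f' g') :
    PQ η k (fun t x => f t x - f' t x) (fun t x => g t x - g' t x) :=
  (h.add (PQ.cmul hη (-1) h')).congr (fun t x => by ring) fun t x => by ring

theorem pd_inv' {f : V n → ℝ} (hf : ContDiff ℝ ∞ f) (h0 : ∀ x, f x ≠ 0) (i : Fin n) :
    pd i (fun x => (f x)⁻¹) = fun x => -1 * (pd i f x * ((f x)⁻¹ * (f x)⁻¹)) := by
  funext x
  unfold pd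
  have h : HasFDerivAt (fun x => (f x)⁻¹) (-(f x ^ 2)⁻¹ • fderiv ℝ f x) x :=
    (hasDerivAt_inv (h0 x)).comp_hasFDerivAt x (hf.differentiable (by simp) x).hasFDerivAt
  rw [h.fderiv]
  simp only [ContinuousLinearMap.smul_apply, smul_eq_mul]
  rw [pow_two, mul_inv]
  ring

include hη in
theorem PQ.inv {k : ℕ} {f g : ι → V n → ℝ} (h : PQ η k f g) (hf : ∀ t x, 1 / 2 ≤ f t x)
    (hg : ∀ t x, 1 / 2 ≤ g t x) : PQ η k (fun t x => (f t x)⁻¹) (fun t x => (g t x)⁻¹) := by
  have hf0 : ∀ t x, f t x ≠ 0 := fun t x => by have := hf t x; intro h; rw [h] at this; norm_num at this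
  have hg0 : ∀ t x, g t x ≠ 0 := fun t x => by have := hg t x; intro h; rw [h] at this; norm_num at this
  have bd : ∀ a : ℝ, 1 / 2 ≤ a → |a⁻¹| ≤ 2 := fun a ha => by
    rw [abs_inv, abs_of_pos (by linarith)]
    rw [inv_le_comm₀ (by linarith) (by norm_num)]
    linarith
  have base : (∃ B, 0 ≤ B ∧ ∀ t x, |f t x| ≤ B ∧ |g t x| ≤ B ∧ |f t x - g t x| ≤ B * η t) →
      ∃ B, 0 ≤ B ∧ ∀ t x, |(f t x)⁻¹| ≤ B ∧ |(g t x)⁻¹| ≤ B ∧
        |(f t x)⁻¹ - (g t x)⁻¹| ≤ B * η t := by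
    rintro ⟨B, hB, h⟩
    refine ⟨2 + 4 * B, by positivity, fun t x => ⟨?_, ?_, ?_⟩⟩
    · linarith [bd _ (hf t x)]
    · linarith [bd _ (hg t x)]
    · have e : (f t x)⁻¹ - (g t x)⁻¹ = -(f t x - g t x) * ((f t x)⁻¹ * (g t x)⁻¹) := by
        field_simp [hf0 t x, hg0 t x]
        ring
      rw [e, abs_mul, abs_neg, abs_mul]
      have h1 := mul_le_mul (bd _ (hf t x)) (bd _ (hg t x)) (abs_nonneg _) (by norm_num)
      have h2 := mul_le_mul (h t x).2.2 h1 (by positivity) (mul_nonneg hB (hη t))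
      nlinarith [hη t]
  induction k with
  | zero => exact ⟨fun t => (h.sf t).inv (hf0 t), fun t => (h.sg t).inv (hg0 t), base h.q⟩
  | succ k ih =>
    refine PQ.mk' (fun t => (h.sf t).inv (hf0 t)) (fun t => (h.sg t).inv (hg0 t)) (base h.q.base)
      fun i => (PQ.cmul hη (-1) (PQ.mul hη (h.pd i) (PQ.mul hη (ih h.mono) (ih h.mono)))).congr
        (fun t x => ?_) fun t x => ?_
    · rw [pd_inv' (h.sf t) (hf0 t)]
    · rw [pd_inv' (h.sg t) (hg0 t)]

/-! ## Determinants and adjugates -/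

include hη in
theorem PQ.det {k : ℕ} {κ : Type*} [Fintype κ] [DecidableEq κ] {M M' : ι → V n → Matrix κ κ ℝ}
    (h : ∀ i j, PQ η k (fun t x => M t x i j) (fun t x => M' t x i j)) :
    PQ η k (fun t x => (M t x).det) (fun t x => (M' t x).det) := by
  have h1 := PQ.sum hη (Finset.univ : Finset (Equiv.Perm κ)) fun σ : Equiv.Perm κ =>
    PQ.cmul hη ((Equiv.Perm.sign σ : ℤ) : ℝ) (PQ.prod hη Finset.univ fun i => h (σ i) i)
  refine h1.congr (fun t x => ?_) fun t x => ?_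
  · rw [Matrix.det_apply]
    refine Finset.sum_congr rfl fun σ _ => ?_
    rw [Units.smul_def, zsmul_eq_mul]
  · rw [Matrix.det_apply]
    refine Finset.sum_congr rfl fun σ _ => ?_
    rw [Units.smul_def, zsmul_eq_mul]

include hη in
theorem PQ.adj {k : ℕ} {κ : Type*} [Fintype κ] [DecidableEq κ] {M M' : ι → V n → Matrix κ κ ℝ}
    (h : ∀ i j, PQ η k (fun t x => M t x i j) (fun t x => M' t x i j)) (i j : κ) :
    PQ η k (fun t x => (M t x).adjugate i j) (fun t x => (M' t x).adjugate i j) := by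
  have h1 := PQ.det hη (M := fun t x => (M t x).updateRow j (Pi.single i 1))
    (M' := fun t x => (M' t x).updateRow j (Pi.single i 1)) (k := k) (fun a b => by
      by_cases hab : a = j
      · subst hab
        simp only [Matrix.updateRow_self]
        exact PQ.const hη _
      · simp only [Matrix.updateRow_ne hab]
        exact h a b)
  exact h1.congr (fun t x => by rw [Matrix.adjugate_apply]) fun t x => by rw [Matrix.adjugate_apply]

/-! ## Relation with `Cl` -/

theorem Cl.pd' {k : ℕ} {B : ℝ} {f : V n → ℝ} (hf : ContDiff ℝ ∞ f) (h : Cl (k + 1) B f)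
    (i : Fin n) : Cl k B (pd i f) := by
  intro l hl x
  let L : (V n →L[ℝ] ℝ) →L[ℝ] ℝ := ContinuousLinearMap.apply ℝ ℝ (Pi.single i (1 : ℝ))
  have hL : ‖L‖ ≤ 1 := by
    refine ContinuousLinearMap.opNorm_le_bound _ zero_le_one fun T => ?_
    have h1 : L T = T (Pi.single i 1) := rfl
    rw [h1, one_mul]
    refine (T.le_opNorm _).trans ?_
    rw [Pi.norm_single, norm_one, mul_one]
  have h2 : pd i f = L ∘ fderiv ℝ f := rfl
  rw [h2]
  have hfd : ContDiff ℝ ∞ (fderiv ℝ f) := hf.fderiv_right (by simp)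
  refine (ContinuousLinearMap.norm_iteratedFDeriv_comp_left L hfd.contDiffAt
    (by exact_mod_cast le_top)).trans ?_
  rw [norm_iteratedFDeriv_fderiv]
  calc ‖L‖ * ‖iteratedFDeriv ℝ (l + 1) f x‖ ≤ 1 * ‖iteratedFDeriv ℝ (l + 1) f x‖ :=
        mul_le_mul_of_nonneg_right hL (norm_nonneg _)
    _ ≤ B := by rw [one_mul]; exact h (l + 1) (by omega) x

theorem pd_sub' {f g : V n → ℝ} (hf : ContDiff ℝ ∞ f) (hg : ContDiff ℝ ∞ g) (i : Fin n) :
    pd i (fun x => f x - g x) = fun x => pd i f x - pd i g x := by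
  funext x
  unfold pd
  rw [show (fun x => f x - g x) = f - g from rfl, fderiv_sub (hf.differentiable (by simp) x)
    (hg.differentiable (by simp) x)]
  rfl

/-- From `Cl` to `PQ`. -/
theorem PQ.of_cl {k : ℕ} {B : ℝ} (hB : 0 ≤ B) : ∀ {f g : ι → V n → ℝ},
    (∀ t, ContDiff ℝ ∞ (f t)) → (∀ t, ContDiff ℝ ∞ (g t)) → (∀ t, Cl k B (f t)) →
    (∀ t, Cl k B (g t)) → (∀ t, Cl k (B * η t) (fun x => f t x - g t x)) → PQ η k f g := by
  have base : ∀ {k : ℕ} {f g : ι → V n → ℝ}, (∀ t, Cl k B (f t)) →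
      (∀ t, Cl k B (g t)) → (∀ t, Cl k (B * η t) (fun x => f t x - g t x)) →
      ∃ B, 0 ≤ B ∧ ∀ t x, |f t x| ≤ B ∧ |g t x| ≤ B ∧ |f t x - g t x| ≤ B * η t := by
    intro k f g h1 h2 h3
    refine ⟨B, hB, fun t x => ⟨?_, ?_, ?_⟩⟩
    · simpa [Real.norm_eq_abs] using h1 t 0 (Nat.zero_le _) x
    · simpa [Real.norm_eq_abs] using h2 t 0 (Nat.zero_le _) x
    · simpa [Real.norm_eq_abs] using h3 t 0 (Nat.zero_le _) x
  induction k with
  | zero => exact fun hf hg h1 h2 h3 => ⟨hf, hg, base h1 h2 h3⟩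
  | succ k ih =>
    intro f g hf hg h1 h2 h3
    refine PQ.mk' hf hg (base h1 h2 h3) fun i => ih (fun t => cd_pd (hf t) i)
      (fun t => cd_pd (hg t) i) (fun t => Cl.pd' (hf t) (h1 t) i) (fun t => Cl.pd' (hg t) (h2 t) i)
      fun t => ?_
    have := Cl.pd' ((hf t).sub (hg t)) (h3 t) i
    rw [pd_sub' (hf t) (hg t)] at this
    exact this

/-- A bound of the derivatives by the partial derivatives. -/
theorem Cl.succ' {k : ℕ} {B : ℝ} (hB : 0 ≤ B) {f : V n → ℝ} (hf : ContDiff ℝ ∞ f)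
    (h0 : ∀ x, |f x| ≤ B) (h : ∀ i, Cl k B (pd i f)) : Cl (k + 1) ((n + 1) * B) f := by
  intro l hl x
  rcases Nat.eq_zero_or_pos l with rfl | hl0
  · rw [norm_iteratedFDeriv_zero, Real.norm_eq_abs]
    refine (h0 x).trans ?_
    nlinarith [mul_nonneg (Nat.cast_nonneg (α := ℝ) n) hB]
  · obtain ⟨l, rfl⟩ : ∃ l', l = l' + 1 := ⟨l - 1, by omega⟩
    rw [← norm_iteratedFDeriv_fderiv]
    let L : Fin n → ℝ →L[ℝ] (V n →L[ℝ] ℝ) := fun i =>
      (ContinuousLinearMap.id ℝ ℝ).smulRight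
        (ContinuousLinearMap.proj (R := ℝ) (φ := fun _ : Fin n => ℝ) i)
    have hL : ∀ i, ‖L i‖ ≤ 1 := fun i => by
      refine ContinuousLinearMap.opNorm_le_bound _ zero_le_one fun c => ?_
      refine ContinuousLinearMap.opNorm_le_bound _ (by positivity) fun v => ?_
      have h1 : L i c v = c * v i := rfl
      rw [h1, norm_mul, one_mul]
      exact mul_le_mul_of_nonneg_left (norm_le_pi_norm v i) (norm_nonneg _)
    have h2 : fderiv ℝ f = fun x => ∑ i, (L i ∘ pd i f) x := by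
      funext x
      ext v
      rw [ContinuousLinearMap.sum_apply]
      have h3 : ∀ i, (L i ∘ pd i f) x v = pd i f x * v i := fun i => rfl
      simp only [h3]
      conv_lhs => rw [show v = ∑ i, v i • (Pi.single i (1 : ℝ) : V n) from by
        ext j; simp [Finset.sum_apply, Pi.single_apply]]
      rw [map_sum]
      refine Finset.sum_congr rfl fun i _ => ?_
      rw [map_smul, smul_eq_mul, mul_comm]
      rfl
    have hc : ∀ i, ContDiff ℝ ∞ (L i ∘ pd i f) := fun i => (L i).contDiff.comp (cd_pd hf i)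
    rw [h2]
    have h4 : iteratedFDeriv ℝ l (fun x => ∑ i, (L i ∘ pd i f) x) x =
        ∑ i, iteratedFDeriv ℝ l (L i ∘ pd i f) x := by
      have := iteratedFDeriv_sum (𝕜 := ℝ) (i := l) (u := (Finset.univ : Finset (Fin n)))
        (f := fun i => L i ∘ pd i f) (fun i _ => (hc i).of_le (by exact_mod_cast le_top))
      have h5 := congrFun this x
      rw [Finset.sum_apply] at h5
      rw [← h5]
    rw [h4]
    refine (norm_sum_le _ _).trans ?_
    have h6 : ∀ i ∈ (Finset.univ : Finset (Fin n)), ‖iteratedFDeriv ℝ l (L i ∘ pd i f) x‖ ≤ B := by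
      intro i _
      refine (ContinuousLinearMap.norm_iteratedFDeriv_comp_left (L i) (cd_pd hf i).contDiffAt
        (by exact_mod_cast le_top)).trans ?_
      calc ‖L i‖ * ‖iteratedFDeriv ℝ l (pd i f) x‖ ≤ 1 * ‖iteratedFDeriv ℝ l (pd i f) x‖ :=
            mul_le_mul_of_nonneg_right (hL i) (norm_nonneg _)
        _ ≤ B := by rw [one_mul]; exact h i l (by omega) x
    refine (Finset.sum_le_sum h6).trans ?_
    rw [Finset.sum_const, Finset.card_univ, Fintype.card_fin, nsmul_eq_mul]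
    nlinarith

/-- From `PQ` to `Cl`. -/
theorem PQ.to_cl {k : ℕ} : ∀ {f g : ι → V n → ℝ}, PQ η k f g → (∀ t, 0 ≤ η t) →
    ∃ C, 0 ≤ C ∧ ∀ t, Cl k C (f t) ∧ Cl k (C * η t) (fun x => f t x - g t x) := by
  induction k with
  | zero =>
    rintro f g ⟨_, _, B, hB, h⟩ hη
    refine ⟨B, hB, fun t => ⟨?_, ?_⟩⟩
    · intro l hl x
      obtain rfl : l = 0 := by omega
      rw [norm_iteratedFDeriv_zero, Real.norm_eq_abs]
      exact (h t x).1
    · intro l hl x
      obtain rfl : l = 0 := by omega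
      rw [norm_iteratedFDeriv_zero, Real.norm_eq_abs]
      exact (h t x).2.2
  | succ k ih =>
    intro f g h hη
    obtain ⟨B, hB, h0⟩ := h.q.base
    choose C hC hC2 using fun i => ih (h.pd i) hη
    set D : ℝ := B + ∑ i, C i with hD
    have hD0 : 0 ≤ D := add_nonneg hB (Finset.sum_nonneg fun i _ => hC i)
    have hCD : ∀ i, C i ≤ D := fun i => by
      have := Finset.single_le_sum (f := C) (fun i _ => hC i) (Finset.mem_univ i)
      linarith
    have hBD : B ≤ D := by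
      have : 0 ≤ ∑ i, C i := Finset.sum_nonneg fun i _ => hC i
      linarith
    refine ⟨(n + 1) * D, by positivity, fun t => ⟨?_, ?_⟩⟩
    · refine Cl.succ' hD0 (h.sf t) (fun x => ((h0 t x).1).trans hBD) fun i l hl x => ?_
      exact ((hC2 i t).1 l hl x).trans (hCD i)
    · have e : (n + 1) * D * η t = (n + 1) * (D * η t) := by ring
      rw [e]
      refine Cl.succ' (mul_nonneg hD0 (hη t)) ((h.sf t).sub (h.sg t)) (fun x => ?_) fun i => ?_
      · exact ((h0 t x).2.2).trans (mul_le_mul_of_nonneg_right hBD (hη t))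
      · rw [pd_sub' (h.sf t) (h.sg t)]
        intro l hl x
        exact ((hC2 i t).2 l hl x).trans (mul_le_mul_of_nonneg_right (hCD i) (hη t))

end Vale.Agent.P088.PJ.H904
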