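import Vale.Agent.P088.R2.H904.V.Sub
import Vale.Agent.P088.R2.H558.E1
import Vale.Agent.P088.R2.H238.Psh

/-!
# P088, row WS: the operators in the new coordinates
-/

open MeasureTheory Set Filter
open scoped ContDiff Matrix Topology

noncomputable section

namespace Vale.Agent.P088.PJ.H904

open Vale.Agent.P088.LR
open Vale.Agent.P088.HY

variable {n m : ℕ}

/-! ## The chain rule -/

theorem hasFDerivAt_Ph {w₁ w₂ : V n → V n} (h₁ : ContDiff ℝ ∞ w₁) (h₂ : ContDiff ℝ ∞ w₂)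
    (z : VV n) : HasFDerivAt (Ph w₁ w₂)
      ((((2 / 3 : ℝ) • ((ContinuousLinearMap.id ℝ (V n) + fderiv ℝ w₁ z.1).comp
        (ContinuousLinearMap.fst ℝ (V n) (V n)))).prod
        ((2 / 3 : ℝ) • ((ContinuousLinearMap.id ℝ (V n) + fderiv ℝ w₂ z.2).comp
        (ContinuousLinearMap.snd ℝ (V n) (V n)))))) z := by
  have a1 : HasFDerivAt (fun z : VV n => (2 / 3 : ℝ) • (z.1 + w₁ z.1))
      ((2 / 3 : ℝ) • ((ContinuousLinearMap.id ℝ (V n) + fderiv ℝ w₁ z.1).comp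
        (ContinuousLinearMap.fst ℝ (V n) (V n)))) z :=
    (HasFDerivAt.comp z (f := fun z : VV n => z.1) (g := fun x => x + w₁ x)
      (H158.hasFDerivAt_H h₁ z.1) hasFDerivAt_fst).const_smul (2 / 3 : ℝ)
  have a2 : HasFDerivAt (fun z : VV n => (2 / 3 : ℝ) • (z.2 + w₂ z.2))
      ((2 / 3 : ℝ) • ((ContinuousLinearMap.id ℝ (V n) + fderiv ℝ w₂ z.2).comp
        (ContinuousLinearMap.snd ℝ (V n) (V n)))) z :=
    (HasFDerivAt.comp z (f := fun z : VV n => z.2) (g := fun x => x + w₂ x)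
      (H158.hasFDerivAt_H h₂ z.2) hasFDerivAt_snd).const_smul (2 / 3 : ℝ)
  exact a1.prodMk a2

theorem contDiff_Ph {w₁ w₂ : V n → V n} (h₁ : ContDiff ℝ ∞ w₁) (h₂ : ContDiff ℝ ∞ w₂) :
    ContDiff ℝ ∞ (Ph w₁ w₂) :=
  ((contDiff_fst.add (h₁.comp contDiff_fst)).const_smul (2 / 3 : ℝ)).prodMk
    ((contDiff_snd.add (h₂.comp contDiff_snd)).const_smul (2 / 3 : ℝ))

theorem contDiff_Ps {K₁ K₂ : V n → V n} (h₁ : ContDiff ℝ ∞ K₁) (h₂ : ContDiff ℝ ∞ K₂) :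
    ContDiff ℝ ∞ (Ps K₁ K₂) :=
  (h₁.comp (contDiff_fst.const_smul (3 / 2 : ℝ))).prodMk
    (h₂.comp (contDiff_snd.const_smul (3 / 2 : ℝ)))

theorem Ps_Ph {w₁ w₂ K₁ K₂ : V n → V n} (D₁ : Dif univ w₁ K₁) (D₂ : Dif univ w₂ K₂) (z : VV n) :
    Ps K₁ K₂ (Ph w₁ w₂ z) = z := by
  unfold Ps Ph
  simp only [smul_smul]
  norm_num
  rw [D₁.l, D₂.l]

theorem Ph_Ps {w₁ w₂ K₁ K₂ : V n → V n} (D₁ : Dif univ w₁ K₁) (D₂ : Dif univ w₂ K₂) (z : VV n) :
    Ph w₁ w₂ (Ps K₁ K₂ z) = z := by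
  unfold Ps Ph
  simp only [D₁.r, D₂.r, smul_smul]
  norm_num

theorem dx_Ph {w₁ w₂ : V n → V n} (h₁ : ContDiff ℝ ∞ w₁) (h₂ : ContDiff ℝ ∞ w₂)
    {U : VV n → ℝ} {z : VV n} (hU : DifferentiableAt ℝ U (Ph w₁ w₂ z)) (i : Fin n) :
    dx i (fun z => U (Ph w₁ w₂ z)) z =
      ∑ a, 2 / 3 * jm w₁ z.1 a i * dx a U (Ph w₁ w₂ z) := by
  have h := HasFDerivAt.comp z (f := Ph w₁ w₂) hU.hasFDerivAt (hasFDerivAt_Ph h₁ h₂ z)
  unfold dx
  have e : (fun z => U (Ph w₁ w₂ z)) = U ∘ Ph w₁ w₂ := rfl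
  rw [e, h.fderiv, ContinuousLinearMap.comp_apply]
  have e2 : ((((2 / 3 : ℝ) • ((ContinuousLinearMap.id ℝ (V n) + fderiv ℝ w₁ z.1).comp
        (ContinuousLinearMap.fst ℝ (V n) (V n)))).prod
        ((2 / 3 : ℝ) • ((ContinuousLinearMap.id ℝ (V n) + fderiv ℝ w₂ z.2).comp
        (ContinuousLinearMap.snd ℝ (V n) (V n)))))) (Pi.single i 1, 0) =
      ∑ a, (2 / 3 * jm w₁ z.1 a i) • ((Pi.single a 1, 0) : VV n) := by
    refine Prod.ext ?_ ?_
    · rw [Prod.fst_sum]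
      show (2 / 3 : ℝ) • ((ContinuousLinearMap.id ℝ (V n) + fderiv ℝ w₁ z.1) (Pi.single i 1)) = _
      conv_lhs => rw [H158.vec_eq ((ContinuousLinearMap.id ℝ (V n) + fderiv ℝ w₁ z.1)
        (Pi.single i 1))]
      rw [Finset.smul_sum]
      refine Finset.sum_congr rfl fun a _ => ?_
      rw [H158.H_apply, smul_smul]
      rfl
    · rw [Prod.snd_sum]
      show (2 / 3 : ℝ) • ((ContinuousLinearMap.id ℝ (V n) + fderiv ℝ w₂ z.2) 0) = _
      rw [map_zero, smul_zero]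
      symm
      refine Finset.sum_eq_zero fun a _ => ?_
      show (2 / 3 * jm w₁ z.1 a i) • (0 : V n) = 0
      rw [smul_zero]
  rw [e2, map_sum]
  refine Finset.sum_congr rfl fun a _ => ?_
  rw [map_smul, smul_eq_mul]

theorem dxx_Ph {w₁ w₂ : V n → V n} (h₁ : ContDiff ℝ ∞ w₁) (h₂ : ContDiff ℝ ∞ w₂)
    {O : Set (VV n)} (hO : IsOpen O) {U : VV n → ℝ} (hU : ContDiffOn ℝ ∞ U O) {z : VV n}
    (hz : Ph w₁ w₂ z ∈ O) (i j : Fin n) :
    dx i (dx j (fun z => U (Ph w₁ w₂ z))) z =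
      ∑ a, (2 / 3 * pd i (fun x => jm w₁ x a j) z.1 * dx a U (Ph w₁ w₂ z)
        + 2 / 3 * jm w₁ z.1 a j * ∑ b, 2 / 3 * jm w₁ z.1 b i * dx b (dx a U) (Ph w₁ w₂ z)) := by
  have hO' : IsOpen (Ph w₁ w₂ ⁻¹' O) := hO.preimage (contDiff_Ph h₁ h₂).continuous
  have hdU : ∀ a, ContDiffOn ℝ ∞ (dx a U) O := fun a => SO.dd hO hU _
  have e1 : ∀ z ∈ Ph w₁ w₂ ⁻¹' O, dx j (fun z => U (Ph w₁ w₂ z)) z =
      ∑ a, 2 / 3 * jm w₁ z.1 a j * dx a U (Ph w₁ w₂ z) := fun z hz =>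
    dx_Ph h₁ h₂ (SO.diff hO hU hz) j
  have e2 : dx i (dx j (fun z => U (Ph w₁ w₂ z))) z =
      dx i (fun z => ∑ a, 2 / 3 * jm w₁ z.1 a j * dx a U (Ph w₁ w₂ z)) z :=
    dd_congrOn hO' e1 hz
  rw [e2]
  have hJ : ∀ a, ContDiff ℝ ∞ (fun x => jm w₁ x a j) := fun a => H158.contDiff_jm h₁ a j
  have d1 : ∀ a, DifferentiableAt ℝ (fun z : VV n => jm w₁ z.1 a j) z := fun a =>
    ((hJ a).comp contDiff_fst).differentiable (by simp) z
  have d1' : ∀ a, DifferentiableAt ℝ (fun z : VV n => 2 / 3 * jm w₁ z.1 a j) z := fun a =>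
    (d1 a).const_mul _
  have d2 : ∀ a, DifferentiableAt ℝ (fun z => dx a U (Ph w₁ w₂ z)) z := fun a =>
    DifferentiableAt.comp z (f := Ph w₁ w₂) (SO.diff hO (hdU a) hz)
      ((contDiff_Ph h₁ h₂).differentiable (by simp) z)
  have e3 : dx i (fun z => ∑ a, 2 / 3 * jm w₁ z.1 a j * dx a U (Ph w₁ w₂ z)) z =
      ∑ a, dx i (fun z => 2 / 3 * jm w₁ z.1 a j * dx a U (Ph w₁ w₂ z)) z :=
    dd_sum (e := (Pi.single i 1, 0)) Finset.univ fun a _ => (d1' a).mul (d2 a)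
  rw [e3]
  refine Finset.sum_congr rfl fun a _ => ?_
  have e4 : dx i (fun z => 2 / 3 * jm w₁ z.1 a j * dx a U (Ph w₁ w₂ z)) z =
      dx i (fun z => 2 / 3 * jm w₁ z.1 a j) z * dx a U (Ph w₁ w₂ z) +
        2 / 3 * jm w₁ z.1 a j * dx i (fun z => dx a U (Ph w₁ w₂ z)) z :=
    dd_mul (e := (Pi.single i 1, 0)) (d1' a) (d2 a)
  have e5 : dx i (fun z : VV n => 2 / 3 * jm w₁ z.1 a j) z =
      2 / 3 * pd i (fun x => jm w₁ x a j) z.1 := by
    have := dx_comp_fst (g := fun x => 2 / 3 * jm w₁ x a j) (z := z)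
      (((hJ a).differentiable (by simp) z.1).const_mul _) i
    rw [this]
    unfold pd
    rw [fderiv_const_mul ((hJ a).differentiable (by simp) z.1)]
    rfl
  rw [e4, e5, dx_Ph h₁ h₂ (SO.diff hO (hdU a) hz) i]

/-- The operator in `x` in the new coordinates. -/
theorem LxG_Ph {s : MF n} {w₁ w₂ K₁ K₂ : V n → V n} (D₁ : Dif univ w₁ K₁) (D₂ : Dif univ w₂ K₂)
    (b : Fin n → V n → Matrix (Fin m) (Fin m) ℝ) {O : Set (VV n)} (hO : IsOpen O)
    {U : Fin m → VV n → ℝ} (hU : ∀ q, ContDiffOn ℝ ∞ (U q) O) {z : VV n}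
    (hz : Ph w₁ w₂ z ∈ O) (p : Fin m) :
    LxG s (e0 b) (fun q z => U q (Ph w₁ w₂ z)) p z =
      4 / 9 * (jm w₁ z.1).det *
        LxG (pT s w₁ K₁) (e0 (bT s w₁ K₁ b)) U p (Ph w₁ w₂ z) := by
  have hP : pT s w₁ K₁ (Ph w₁ w₂ z).1 = (jm w₁ z.1).det⁻¹ •
      (jm w₁ z.1 * s z.1 * (jm w₁ z.1)ᵀ) := by
    unfold pT Ph psh
    simp only [smul_smul]
    norm_num
    rw [D₁.l]
  have hB : ∀ a, bT s w₁ K₁ b a (Ph w₁ w₂ z).1 = bO s w₁ b a z.1 := by
    intro a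
    unfold bT Ph
    simp only [smul_smul]
    norm_num
    rw [D₁.l]
  have hd : (jm w₁ z.1).det ≠ 0 := (D₁.dp z.1).ne'
  set J := jm w₁ z.1 with hJ
  set Z := Ph w₁ w₂ z with hZ
  -- second order part
  have f1 : Lx s (fun z => U p (Ph w₁ w₂ z)) z =
      2 / 3 * (∑ a, (∑ i, ∑ j, s z.1 i j * pd i (fun x => jm w₁ x a j) z.1) * dx a (U p) Z)
        + 4 / 9 * ∑ b, ∑ a, (J * s z.1 * Jᵀ) b a * dx b (dx a (U p)) Z := by
    unfold Lx
    have g1 : ∀ i j, s z.1 i j * dx i (dx j (fun z => U p (Ph w₁ w₂ z))) z =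
        ∑ a, (2 / 3 * (s z.1 i j * pd i (fun x => jm w₁ x a j) z.1 * dx a (U p) Z)
          + 4 / 9 * ∑ b, J b i * s z.1 i j * J a j * dx b (dx a (U p)) Z) := by
      intro i j
      rw [dxx_Ph D₁.sw D₂.sw hO (hU p) hz i j, Finset.mul_sum]
      refine Finset.sum_congr rfl fun a _ => ?_
      rw [mul_add, Finset.mul_sum, Finset.mul_sum, Finset.mul_sum]
      congr 1
      · ring
      · refine Finset.sum_congr rfl fun b _ => ?_
        ring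
    simp only [g1]
    have g2 : ∀ i j, ∑ a, (2 / 3 * (s z.1 i j * pd i (fun x => jm w₁ x a j) z.1 * dx a (U p) Z)
          + 4 / 9 * ∑ b, J b i * s z.1 i j * J a j * dx b (dx a (U p)) Z) =
        2 / 3 * (∑ a, s z.1 i j * pd i (fun x => jm w₁ x a j) z.1 * dx a (U p) Z) +
        4 / 9 * ∑ a, ∑ b, J b i * s z.1 i j * J a j * dx b (dx a (U p)) Z := by
      intro i j
      rw [Finset.sum_add_distrib, Finset.mul_sum, Finset.mul_sum]
    simp only [g2, Finset.sum_add_distrib, ← Finset.mul_sum]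
    congr 2
    · have g3 : ∀ i, ∑ j, ∑ a, s z.1 i j * pd i (fun x => jm w₁ x a j) z.1 * dx a (U p) Z =
          ∑ a, ∑ j, s z.1 i j * pd i (fun x => jm w₁ x a j) z.1 * dx a (U p) Z := fun i =>
        Finset.sum_comm
      simp only [g3]
      rw [Finset.sum_comm]
      refine Finset.sum_congr rfl fun a _ => ?_
      rw [Finset.sum_mul]
      refine Finset.sum_congr rfl fun i _ => ?_
      rw [Finset.sum_mul]
    · have g4 : ∀ b a, (J * s z.1 * Jᵀ) b a * dx b (dx a (U p)) Z =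
          ∑ i, ∑ j, J b i * s z.1 i j * J a j * dx b (dx a (U p)) Z := by
        intro b a
        rw [Matrix.mul_apply, Finset.sum_mul]
        rw [Finset.sum_comm]
        refine Finset.sum_congr rfl fun j _ => ?_
        rw [Matrix.mul_apply, Finset.sum_mul, Finset.sum_mul]
        refine Finset.sum_congr rfl fun i _ => ?_
        rw [Matrix.transpose_apply]
      simp only [g4]
      calc ∑ i, ∑ j, ∑ a, ∑ b, J b i * s z.1 i j * J a j * dx b (dx a (U p)) Z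
          = ∑ i, ∑ a, ∑ j, ∑ b, J b i * s z.1 i j * J a j * dx b (dx a (U p)) Z :=
            Finset.sum_congr rfl fun i _ => Finset.sum_comm
        _ = ∑ a, ∑ i, ∑ j, ∑ b, J b i * s z.1 i j * J a j * dx b (dx a (U p)) Z :=
            Finset.sum_comm
        _ = ∑ a, ∑ i, ∑ b, ∑ j, J b i * s z.1 i j * J a j * dx b (dx a (U p)) Z :=
            Finset.sum_congr rfl fun a _ => Finset.sum_congr rfl fun i _ => Finset.sum_comm
        _ = ∑ a, ∑ b, ∑ i, ∑ j, J b i * s z.1 i j * J a j * dx b (dx a (U p)) Z :=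
            Finset.sum_congr rfl fun a _ => Finset.sum_comm
        _ = _ := Finset.sum_comm
  -- first order part
  have f2 : ∀ q l, dx l (fun z => U q (Ph w₁ w₂ z)) z = ∑ a, 2 / 3 * J a l * dx a (U q) Z :=
    fun q l => dx_Ph D₁.sw D₂.sw (SO.diff hO (hU q) hz) l
  have f3 : Lx (pT s w₁ K₁) (U p) Z =
      J.det⁻¹ * ∑ b, ∑ a, (J * s z.1 * Jᵀ) b a * dx b (dx a (U p)) Z := by
    unfold Lx
    rw [hP]
    simp only [Matrix.smul_apply, smul_eq_mul, mul_assoc, ← Finset.mul_sum]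
  unfold LxG
  simp only [e0, Matrix.zero_apply, zero_mul, add_zero, hB, f2]
  rw [f1, f3]
  have f4 : ∀ a q, bO s w₁ b a z.1 p q = 3 / 2 * J.det⁻¹ *
      ((∑ i, ∑ j, s z.1 i j * pd i (fun y => jm w₁ y a j) z.1) *
        (1 : Matrix (Fin m) (Fin m) ℝ) p q + ∑ i, J a i * b i z.1 p q) := by
    intro a q
    unfold bO
    rw [Matrix.smul_apply, smul_eq_mul, Matrix.add_apply, Matrix.smul_apply, smul_eq_mul,
      Matrix.sum_apply]
    simp only [Matrix.smul_apply, smul_eq_mul]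
    rfl
  simp only [f4]
  have f5 : ∑ q, ∑ a, 3 / 2 * J.det⁻¹ *
      ((∑ i, ∑ j, s z.1 i j * pd i (fun y => jm w₁ y a j) z.1) *
        (1 : Matrix (Fin m) (Fin m) ℝ) p q + ∑ i, J a i * b i z.1 p q) * dx a (U q) Z =
      3 / 2 * J.det⁻¹ * (∑ a, (∑ i, ∑ j, s z.1 i j * pd i (fun y => jm w₁ y a j) z.1) *
        dx a (U p) Z + ∑ q, ∑ a, (∑ i, J a i * b i z.1 p q) * dx a (U q) Z) := by
    have g1 : ∀ q a, 3 / 2 * J.det⁻¹ *
      ((∑ i, ∑ j, s z.1 i j * pd i (fun y => jm w₁ y a j) z.1) *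
        (1 : Matrix (Fin m) (Fin m) ℝ) p q + ∑ i, J a i * b i z.1 p q) * dx a (U q) Z =
        3 / 2 * J.det⁻¹ * ((1 : Matrix (Fin m) (Fin m) ℝ) p q *
          ((∑ i, ∑ j, s z.1 i j * pd i (fun y => jm w₁ y a j) z.1) * dx a (U q) Z) +
          (∑ i, J a i * b i z.1 p q) * dx a (U q) Z) := by
      intro q a; ring
    simp only [g1, ← Finset.mul_sum, Finset.sum_add_distrib]
    congr 2
    rw [Finset.sum_eq_single p]
    · rw [Matrix.one_apply_eq, one_mul]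
    · intro q _ hq
      rw [Matrix.one_apply_ne (Ne.symm hq), zero_mul]
    · intro h; exact absurd (Finset.mem_univ p) h
  rw [f5]
  have f6 : ∑ q, ∑ l, b l z.1 p q * ∑ a, 2 / 3 * J a l * dx a (U q) Z =
      2 / 3 * ∑ q, ∑ a, (∑ i, J a i * b i z.1 p q) * dx a (U q) Z := by
    rw [Finset.mul_sum]
    refine Finset.sum_congr rfl fun q _ => ?_
    rw [Finset.mul_sum]
    simp only [Finset.mul_sum, Finset.sum_mul]
    rw [Finset.sum_comm]
    refine Finset.sum_congr rfl fun a _ => Finset.sum_congr rfl fun l _ => ?_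
    ring
  rw [f6]
  field_simp
  ring

end Vale.Agent.P088.PJ.H904
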