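import Vale.Agent.P088.R2.H904.V.Chg

/-!
# P088, row WS: the operator in `y`, divergence, commutation, smoothness of the coefficients
-/

open MeasureTheory Set Filter
open scoped ContDiff Matrix Topology

noncomputable section

namespace Vale.Agent.P088.PJ.H904

open Vale.Agent.P088.LR
open Vale.Agent.P088.HY

variable {n m : ℕ}

/-! ## Exchange of the variables -/

theorem dy_swap (i : Fin n) (f : VV n → ℝ) (z : VV n) :
    dy i f z = dx i (fun z => f z.swap) z.swap := by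
  unfold dy dx
  have e : (fun z : VV n => f z.swap) = f ∘ (ContinuousLinearEquiv.prodComm ℝ (V n) (V n)) := rfl
  rw [e, ContinuousLinearEquiv.comp_right_fderiv]
  rfl

theorem Ly_swap (s : MF n) (f : VV n → ℝ) (z : VV n) :
    Ly s f z = Lx s (fun z => f z.swap) z.swap := by
  unfold Ly Lx
  refine Finset.sum_congr rfl fun i _ => Finset.sum_congr rfl fun j _ => ?_
  rw [dy_swap i]
  congr 2
  funext z
  rw [dy_swap j, Prod.swap_swap]

theorem LyG_swap (s : MF n) (e : Co n m) (f : Fin m → VV n → ℝ) (p : Fin m) (z : VV n) :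
    LyG s e f p z = LxG s e (fun q z => f q z.swap) p z.swap := by
  unfold LyG LxG
  rw [Ly_swap]
  congr 1
  refine Finset.sum_congr rfl fun q _ => ?_
  simp only [dy_swap]
  rfl

/-- The operator in `y` in the new coordinates. -/
theorem LyG_Ph {s : MF n} {w₁ w₂ K₁ K₂ : V n → V n} (D₁ : Dif univ w₁ K₁) (D₂ : Dif univ w₂ K₂)
    (b : Fin n → V n → Matrix (Fin m) (Fin m) ℝ) {O : Set (VV n)} (hO : IsOpen O)
    {U : Fin m → VV n → ℝ} (hU : ∀ q, ContDiffOn ℝ ∞ (U q) O) {z : VV n}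
    (hz : Ph w₁ w₂ z ∈ O) (p : Fin m) :
    LyG s (e0 b) (fun q z => U q (Ph w₁ w₂ z)) p z =
      4 / 9 * (jm w₂ z.2).det *
        LyG (pT s w₂ K₂) (e0 (bT s w₂ K₂ b)) U p (Ph w₁ w₂ z) := by
  have hsw : Continuous (Prod.swap : VV n → VV n) := continuous_swap
  have h := LxG_Ph (s := s) D₂ D₁ b (O := Prod.swap ⁻¹' O) (hO.preimage hsw)
    (U := fun q z => U q z.swap) (fun q => (hU q).comp
      ((contDiff_snd.prodMk contDiff_fst).contDiffOn (s := Prod.swap ⁻¹' O)) fun z hz => hz)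
    (z := z.swap) hz p
  rw [LyG_swap, LyG_swap]
  exact h

/-! ## Factors -/

theorem dx_mul_snd {O : Set (VV n)} (hO : IsOpen O) (g : V n → ℝ) (hg : ContDiff ℝ ∞ g)
    {f : VV n → ℝ} (hf : ContDiffOn ℝ ∞ f O) (i : Fin n) {z : VV n} (hz : z ∈ O) :
    dx i (fun z => g z.2 * f z) z = g z.2 * dx i f z := by
  have e : dx i (fun z => g z.2 * f z) z = dx i (fun z => g z.2) z * f z + g z.2 * dx i f z :=
    dd_mul (e := (Pi.single i 1, 0)) ((hg.comp contDiff_snd).differentiable (by simp) z)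
      (SO.diff hO hf hz)
  rw [e, dx_comp_snd, zero_mul, zero_add]

theorem Lx_mul_snd {O : Set (VV n)} (hO : IsOpen O) (s : MF n) (g : V n → ℝ)
    (hg : ContDiff ℝ ∞ g) {f : VV n → ℝ} (hf : ContDiffOn ℝ ∞ f O) {z : VV n} (hz : z ∈ O) :
    Lx s (fun z => g z.2 * f z) z = g z.2 * Lx s f z := by
  unfold Lx
  rw [Finset.mul_sum]
  refine Finset.sum_congr rfl fun i _ => ?_
  rw [Finset.mul_sum]
  refine Finset.sum_congr rfl fun j _ => ?_
  have e1 : dx i (dx j (fun z => g z.2 * f z)) z = dx i (fun z => g z.2 * dx j f z) z :=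
    dd_congrOn hO (fun z hz => dx_mul_snd hO g hg hf j hz) hz
  have hdj : ContDiffOn ℝ ∞ (dx j f) O := SO.dd hO hf _
  rw [e1, dx_mul_snd hO g hg hdj i hz]
  ring

theorem LxG_mul_snd {O : Set (VV n)} (hO : IsOpen O) (s : MF n)
    (b : Fin n → V n → Matrix (Fin m) (Fin m) ℝ) (g : V n → ℝ)
    (hg : ContDiff ℝ ∞ g) {f : Fin m → VV n → ℝ} (hf : ∀ q, ContDiffOn ℝ ∞ (f q) O) {z : VV n}
    (hz : z ∈ O) (p : Fin m) :
    LxG s (e0 b) (fun q z => g z.2 * f q z) p z = g z.2 * LxG s (e0 b) f p z := by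
  unfold LxG
  rw [Lx_mul_snd hO s g hg (hf p) hz, mul_add]
  congr 1
  rw [Finset.mul_sum]
  refine Finset.sum_congr rfl fun q _ => ?_
  simp only [e0, Matrix.zero_apply, zero_mul, add_zero]
  rw [Finset.mul_sum]
  refine Finset.sum_congr rfl fun l _ => ?_
  rw [dx_mul_snd hO g hg (hf q) l hz]
  ring

theorem LyG_mul_fst {O : Set (VV n)} (hO : IsOpen O) (s : MF n)
    (b : Fin n → V n → Matrix (Fin m) (Fin m) ℝ) (g : V n → ℝ)
    (hg : ContDiff ℝ ∞ g) {f : Fin m → VV n → ℝ} (hf : ∀ q, ContDiffOn ℝ ∞ (f q) O) {z : VV n}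
    (hz : z ∈ O) (p : Fin m) :
    LyG s (e0 b) (fun q z => g z.1 * f q z) p z = g z.1 * LyG s (e0 b) f p z := by
  have hsw : Continuous (Prod.swap : VV n → VV n) := continuous_swap
  have h := LxG_mul_snd (O := Prod.swap ⁻¹' O) (hO.preimage hsw) s b g hg
    (f := fun q z => f q z.swap) (fun q => (hf q).comp
      ((contDiff_snd.prodMk contDiff_fst).contDiffOn (s := Prod.swap ⁻¹' O)) fun z hz => hz)
    (z := z.swap) hz p
  rw [LyG_swap, LyG_swap]
  exact h

/-! ## The coefficients -/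

theorem cd_jm {w : V n → V n} (hw : ContDiff ℝ ∞ w) (i j : Fin n) :
    ContDiff ℝ ∞ (fun x => jm w x i j) := H158.contDiff_jm hw i j

theorem cd_scale {f : V n → ℝ} (hf : ContDiff ℝ ∞ f) {K : V n → V n} (hK : ContDiff ℝ ∞ K) :
    ContDiff ℝ ∞ (fun X => f (K ((3 / 2 : ℝ) • X))) :=
  hf.comp (hK.comp (contDiff_id.const_smul (3 / 2 : ℝ)))

theorem cd_bT {s : MF n} (hs : SmM s) {w K : V n → V n} (D : Dif univ w K)
    {b : Fin n → V n → Matrix (Fin m) (Fin m) ℝ} (hb : ∀ i p q, ContDiff ℝ ∞ fun x => b i x p q)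
    (a : Fin n) (p q : Fin m) : ContDiff ℝ ∞ (fun X => bT s w K b a X p q) := by
  have hdet : ContDiff ℝ ∞ fun x => (jm w x).det⁻¹ :=
    (H158.smM_det (H158.contDiff_jm D.sw)).inv fun x => (D.dp x).ne'
  have h : ContDiff ℝ ∞ (fun x => bO s w b a x p q) := by
    have e : (fun x => bO s w b a x p q) = fun x => 3 / 2 * (jm w x).det⁻¹ *
      ((∑ i, ∑ j, s x i j * pd i (fun y => jm w y a j) x) *
        (1 : Matrix (Fin m) (Fin m) ℝ) p q + ∑ i, jm w x a i * b i x p q) := by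
      funext x
      unfold bO
      rw [Matrix.smul_apply, smul_eq_mul, Matrix.add_apply, Matrix.smul_apply, smul_eq_mul,
        Matrix.sum_apply]
      simp only [Matrix.smul_apply, smul_eq_mul]
    rw [e]
    have hpd : ∀ i j, ContDiff ℝ ∞ (pd i (fun y => jm w y a j)) := fun i j => by
      have h1 : ContDiff ℝ ∞ (fderiv ℝ (fun y => jm w y a j)) :=
        (cd_jm D.sw a j).fderiv_right (by simp)
      exact h1.clm_apply contDiff_const
    refine (contDiff_const.mul hdet).mul (((ContDiff.sum fun i _ => ContDiff.sum fun j _ =>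
      (hs i j).mul (hpd i j)).mul contDiff_const).add (ContDiff.sum fun i _ =>
        (cd_jm D.sw a i).mul (hb i p q)))
  exact cd_scale h D.sK

theorem bT_comm {s₁ s₂ : MF n} {w₁ w₂ K₁ K₂ : V n → V n}
    {b₁ b₂ : Fin n → V n → Matrix (Fin m) (Fin m) ℝ}
    (h : ∀ i j x y, b₁ i x * b₂ j y = b₂ j y * b₁ i x) (k l : Fin n) (x y : V n) :
    bT s₁ w₁ K₁ b₁ k x * bT s₂ w₂ K₂ b₂ l y = bT s₂ w₂ K₂ b₂ l y * bT s₁ w₁ K₁ b₁ k x := by
  have key : ∀ x y, Commute (bO s₁ w₁ b₁ k x) (bO s₂ w₂ b₂ l y) := by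
    intro x y
    unfold bO
    refine Commute.smul_left (Commute.smul_right ?_ _) _
    refine Commute.add_left (Commute.smul_left (Commute.one_left _) _) ?_
    refine Commute.sum_left _ _ _ fun i _ => Commute.smul_left ?_ _
    refine Commute.add_right (Commute.smul_right (Commute.one_right _) _) ?_
    exact Commute.sum_right _ _ _ fun j _ => Commute.smul_right (h i j x y) _
  exact key _ _

theorem sm_pT {s : MF n} (hs : SmM s) {w K : V n → V n} (D : Dif univ w K) : SmM (pT s w K) :=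
  fun i j => ((H158.smM_psh D hs) i j).comp (contDiff_id.const_smul (3 / 2 : ℝ))

theorem sy_pT {s : MF n} (hs : ∀ x, (s x).IsSymm) {w K : V n → V n} (D : Dif univ w K) (x : V n) :
    (pT s w K x).IsSymm := H158.isSymm_psh D hs _

/-- The new tensor is divergence free. -/
theorem dv_pT {s : MF n} (hs : SmM s) (hsy : ∀ x, (s x).IsSymm) {w K : V n → V n}
    (D : Dif univ w K)
    (hd : ∀ a, ∀ x ∈ Bs n 2, dv s (fun y => ((y a + w y a : ℝ) : ℂ)) x = 0) {X : V n}
    (hX : K ((3 / 2 : ℝ) • X) ∈ Bs n 2) (j : Fin n) :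
    ∑ i, pd i (fun y => pT s w K y i j) X = 0 := by
  have h1 := R2.H238.dv_psh D hs hsy (H158.contDiff_coord j) (K ((3 / 2 : ℝ) • X))
  have h2 : dv s (fun x => ((x + w x) j : ℂ)) (K ((3 / 2 : ℝ) • X)) = 0 := hd j _ hX
  rw [h2, D.r] at h1
  have h3 : (((jm w (K ((3 / 2 : ℝ) • X))).det : ℝ) : ℂ) ≠ 0 :=
    Complex.ofReal_ne_zero.2 (D.dp _).ne'
  have h4 : dv (psh s w K) (fun x => ((x j : ℝ) : ℂ)) ((3 / 2 : ℝ) • X) = 0 := by
    rcases mul_eq_zero.1 h1.symm with h | h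
    · exact absurd h h3
    · exact h
  unfold dv at h4
  have hps : SmM (psh s w K) := H158.smM_psh D hs
  have h5 : ∀ i, pd i (fun y => ∑ k, (psh s w K y i k : ℂ) *
      pd k (fun x : V n => ((x j : ℝ) : ℂ)) y) ((3 / 2 : ℝ) • X) =
      ((pd i (fun y => psh s w K y i j) ((3 / 2 : ℝ) • X) : ℝ) : ℂ) := by
    intro i
    have e : (fun y => ∑ k, (psh s w K y i k : ℂ) * pd k (fun x : V n => ((x j : ℝ) : ℂ)) y) =
        fun y => ((psh s w K y i j : ℝ) : ℂ) := by
      funext y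
      simp only [H158.pd_coord]
      simp
    rw [e]
    unfold pd
    have h6 : HasFDerivAt (fun y => ((psh s w K y i j : ℝ) : ℂ))
        (Complex.ofRealCLM.comp (fderiv ℝ (fun y => psh s w K y i j) ((3 / 2 : ℝ) • X)))
        ((3 / 2 : ℝ) • X) :=
      Complex.ofRealCLM.hasFDerivAt.comp _ ((hps i j).differentiable (by simp) _).hasFDerivAt
    rw [h6.fderiv]
    rfl
  simp only [h5] at h4
  rw [← Complex.ofReal_sum] at h4
  have h7 : ∑ i, pd i (fun y => psh s w K y i j) ((3 / 2 : ℝ) • X) = 0 :=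
    Complex.ofReal_eq_zero.1 h4
  have h8 : ∀ i, pd i (fun y => pT s w K y i j) X =
      3 / 2 * pd i (fun y => psh s w K y i j) ((3 / 2 : ℝ) • X) := by
    intro i
    unfold pd pT
    have h9 : HasFDerivAt (fun y : V n => psh s w K ((3 / 2 : ℝ) • y) i j)
        ((fderiv ℝ (fun y => psh s w K y i j) ((3 / 2 : ℝ) • X)).comp
          ((3 / 2 : ℝ) • ContinuousLinearMap.id ℝ (V n))) X :=
      HasFDerivAt.comp X (f := fun y : V n => (3 / 2 : ℝ) • y)
        (g := fun y => psh s w K y i j) ((hps i j).differentiable (by simp) _).hasFDerivAt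
        ((hasFDerivAt_id X).const_smul (3 / 2 : ℝ))
    rw [h9.fderiv]
    simp
  simp only [h8]
  rw [← Finset.mul_sum, h7, mul_zero]

end Vale.Agent.P088.PJ.H904
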