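import Vale.Agent.P088.R2.H904.V.Cal
import Vale.Agent.P088.H158.PushA

/-!
# P088, row WS: compositions in the calculus of pairs
-/

open MeasureTheory Set
open scoped ContDiff Matrix

noncomputable section

namespace Vale.Agent.P088.PJ.H904

open Vale.Agent.P088.LR

variable {n m : ℕ} {ι : Type*} {η : ι → ℝ}

theorem PQ.symm {k : ℕ} : ∀ {f g : ι → V n → ℝ}, PQ η k f g → PQ η k g f := by
  have base : ∀ {f g : ι → V n → ℝ},
      (∃ B, 0 ≤ B ∧ ∀ t x, |f t x| ≤ B ∧ |g t x| ≤ B ∧ |f t x - g t x| ≤ B * η t) →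
      ∃ B, 0 ≤ B ∧ ∀ t x, |g t x| ≤ B ∧ |f t x| ≤ B ∧ |g t x - f t x| ≤ B * η t := by
    rintro f g ⟨B, hB, h⟩
    exact ⟨B, hB, fun t x => ⟨(h t x).2.1, (h t x).1, by rw [abs_sub_comm]; exact (h t x).2.2⟩⟩
  induction k with
  | zero => exact fun h => ⟨h.sg, h.sf, base h.q⟩
  | succ k ih => exact fun h => PQ.mk' h.sg h.sf (base h.q.base) fun i => ih (h.pd i)

/-- Families of maps with difference `O(η)`. -/
structure M0 (η : ι → ℝ) (K K' : ι → V n → V n) : Prop where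
  sK : ∀ t, ContDiff ℝ ∞ (K t)
  sK' : ∀ t, ContDiff ℝ ∞ (K' t)
  d : ∃ B, 0 ≤ B ∧ ∀ t y, ‖K t y - K' t y‖ ≤ B * η t

theorem cd_co {K : V n → V n} (h : ContDiff ℝ ∞ K) (j : Fin n) :
    ContDiff ℝ ∞ (fun y => K y j) := contDiff_pi.1 h j

theorem pd_comp' {f : V n → ℝ} (hf : ContDiff ℝ ∞ f) {K : V n → V n} (hK : ContDiff ℝ ∞ K)
    (i : Fin n) : pd i (fun y => f (K y)) =
      fun y => ∑ j, pd j f (K y) * pd i (fun y => K y j) y := by
  funext y
  have h1 : HasFDerivAt (fun y => f (K y)) ((fderiv ℝ f (K y)).comp (fderiv ℝ K y)) y :=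
    (hf.differentiable (by simp) (K y)).hasFDerivAt.comp y
      (hK.differentiable (by simp) y).hasFDerivAt
  unfold pd
  rw [h1.fderiv, ContinuousLinearMap.comp_apply]
  conv_lhs => rw [H158.vec_eq (fderiv ℝ K y (Pi.single i 1))]
  rw [map_sum]
  refine Finset.sum_congr rfl fun j _ => ?_
  rw [map_smul, smul_eq_mul, mul_comm]
  congr 1
  have h2 : HasFDerivAt (fun y => K y j)
      ((ContinuousLinearMap.proj (R := ℝ) (φ := fun _ : Fin n => ℝ) j).comp (fderiv ℝ K y)) y :=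
    (ContinuousLinearMap.proj (R := ℝ) (φ := fun _ : Fin n => ℝ) j).hasFDerivAt.comp y
      (hK.differentiable (by simp) y).hasFDerivAt
  rw [h2.fderiv]
  rfl

/-- Composition. -/
theorem PQ.comp (hη : ∀ t, 0 ≤ η t) {K K' : ι → V n → V n} (hK : M0 η K K') {k : ℕ} :
    ∀ {f g : ι → V n → ℝ}, PQ η (k + 1) f g →
    (∀ k' < k, ∀ i j, PQ η k' (fun t => LR.pd i (fun y => K t y j))
      (fun t => LR.pd i (fun y => K' t y j))) →
    PQ η k (fun t y => f t (K t y)) (fun t y => g t (K' t y)) := by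
  have base : ∀ {f g : ι → V n → ℝ}, PQ η 1 f g →
      ∃ B, 0 ≤ B ∧ ∀ t x, |f t (K t x)| ≤ B ∧ |g t (K' t x)| ≤ B ∧
        |f t (K t x) - g t (K' t x)| ≤ B * η t := by
    intro f g h
    obtain ⟨B, hB, hb⟩ := h.q.base
    obtain ⟨C, hC, hc⟩ := h.symm.to_cl hη
    obtain ⟨D, hD, hd⟩ := hK.d
    refine ⟨B + C * D, by positivity, fun t x => ⟨?_, ?_, ?_⟩⟩
    · linarith [(hb t (K t x)).1, mul_nonneg hC hD]
    · linarith [(hb t (K' t x)).2.1, mul_nonneg hC hD]
    · have h1 : |g t (K t x) - g t (K' t x)| ≤ C * (D * η t) := by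
        have h2 := (convex_univ (𝕜 := ℝ) (E := V n)).norm_image_sub_le_of_norm_fderiv_le
          (f := g t) (C := C) (fun z _ => (h.sg t).differentiable (by simp) z) (fun z _ => by
            have := (hc t).1 1 (le_refl _) z
            rwa [norm_iteratedFDeriv_one] at this) (mem_univ (K' t x)) (mem_univ (K t x))
        rw [Real.norm_eq_abs] at h2
        exact h2.trans (mul_le_mul_of_nonneg_left (hd t x) hC)
      have e : f t (K t x) - g t (K' t x) =
          (f t (K t x) - g t (K t x)) + (g t (K t x) - g t (K' t x)) := by ring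
      rw [e]
      refine (abs_add_le _ _).trans ?_
      have h3 := (hb t (K t x)).2.2
      nlinarith
  induction k with
  | zero =>
    intro f g h _
    exact ⟨fun t => (h.sf t).comp (hK.sK t), fun t => (h.sg t).comp (hK.sK' t), base h⟩
  | succ k ih =>
    intro f g h hκ
    refine PQ.mk' (fun t => (h.sf t).comp (hK.sK t)) (fun t => (h.sg t).comp (hK.sK' t))
      (base (h.le (by omega))) fun i => ?_
    refine (PQ.sum hη Finset.univ fun j => PQ.mul hη (ih (h.pd j)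
      fun k' hk' => hκ k' (by omega)) (hκ k (by omega) i j)).congr (fun t x => ?_) fun t x => ?_
    · rw [pd_comp' (h.sf t) (hK.sK t)]
    · rw [pd_comp' (h.sg t) (hK.sK' t)]

/-! ## The data -/

/-- Two sets of data with difference `O(e)`. -/
structure Da (n m : ℕ) (δ : ℝ) where
  s : MF n
  s' : MF n
  w : V n → V n
  w' : V n → V n
  K : V n → V n
  K' : V n → V n
  b : Fin n → V n → Matrix (Fin m) (Fin m) ℝ
  b' : Fin n → V n → Matrix (Fin m) (Fin m) ℝ
  e : ℝ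
  he : 0 ≤ e
  hs : SmM s
  hs' : SmM s'
  D : Dif univ w K
  D' : Dif univ w' K'
  hb : ∀ i p q, ContDiff ℝ ∞ (fun x => b i x p q)
  hb' : ∀ i p q, ContDiff ℝ ∞ (fun x => b' i x p q)
  cs : ∀ i j, Cl 8 1 (fun x => s x i j - (1 : Matrix (Fin n) (Fin n) ℝ) i j)
  cs' : ∀ i j, Cl 8 1 (fun x => s' x i j - (1 : Matrix (Fin n) (Fin n) ℝ) i j)
  cw : Cl 8 δ w
  cw' : Cl 8 δ w'
  cb : ∀ i p q, Cl 8 1 (fun x => b i x p q)
  cb' : ∀ i p q, Cl 8 1 (fun x => b' i x p q)
  ds : ∀ i j, Cl 8 e (fun x => s x i j - s' x i j)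
  dw : Cl 8 e (fun x => w x - w' x)
  db : ∀ i p q, Cl 8 e (fun x => b i x p q - b' i x p q)

theorem Cl.co {k : ℕ} {δ : ℝ} {w : V n → V n} (hw : ContDiff ℝ ∞ w) (h : Cl k δ w) (i : Fin n) :
    Cl k δ (fun x => w x i) := by
  intro l hl x
  let L : V n →L[ℝ] ℝ := ContinuousLinearMap.proj (R := ℝ) (φ := fun _ : Fin n => ℝ) i
  have hL : ‖L‖ ≤ 1 := by
    refine ContinuousLinearMap.opNorm_le_bound _ zero_le_one fun T => ?_
    rw [one_mul]
    exact norm_le_pi_norm T i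
  refine (ContinuousLinearMap.norm_iteratedFDeriv_comp_left L (f := w) hw.contDiffAt
    (by exact_mod_cast le_top)).trans ?_
  calc ‖L‖ * ‖iteratedFDeriv ℝ l w x‖ ≤ 1 * ‖iteratedFDeriv ℝ l w x‖ :=
        mul_le_mul_of_nonneg_right hL (norm_nonneg _)
    _ ≤ δ := by rw [one_mul]; exact h l hl x

theorem pd_co {w : V n → V n} (hw : ContDiff ℝ ∞ w) (i j : Fin n) (x : V n) :
    pd j w x i = pd j (fun y => w y i) x := by
  unfold pd
  have h2 : HasFDerivAt (fun y => w y i)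
      ((ContinuousLinearMap.proj (R := ℝ) (φ := fun _ : Fin n => ℝ) i).comp (fderiv ℝ w x)) x :=
    (ContinuousLinearMap.proj (R := ℝ) (φ := fun _ : Fin n => ℝ) i).hasFDerivAt.comp x
      (hw.differentiable (by simp) x).hasFDerivAt
  rw [h2.fderiv]
  rfl

theorem jm_co {w : V n → V n} (hw : ContDiff ℝ ∞ w) (i j : Fin n) (x : V n) :
    jm w x i j = (1 : Matrix (Fin n) (Fin n) ℝ) i j + pd j (fun y => w y i) x := by
  unfold jm
  rw [pd_co hw]

theorem Cl.mono' {F : Type*} [NormedAddCommGroup F] [NormedSpace ℝ F] {k l : ℕ} {a b : ℝ}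
    {f : V n → F} (h : Cl k a f) (hl : l ≤ k) (hab : a ≤ b) : Cl l b f :=
  fun i hi x => (h i (hi.trans hl) x).trans hab

/-- Smallness of `w` which gives a lower bound of the determinant. -/
theorem exists_det (n : ℕ) : ∃ δ : ℝ, 0 < δ ∧ δ ≤ 1 / 2 ∧ ∀ w : V n → V n, ContDiff ℝ ∞ w →
    Cl 1 δ w → ∀ x, 1 / 2 ≤ (jm w x).det := by
  let p0 : Fin n × Fin n → ℝ := fun a => (1 : Matrix (Fin n) (Fin n) ℝ) a.1 a.2
  let M : (Fin n × Fin n → ℝ) → Matrix (Fin n) (Fin n) ℝ := fun p => Matrix.of fun i j => p (i, j)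
  have hM : ∀ i j, ContDiff ℝ ∞ (fun p => M p i j) := fun i j => contDiff_apply ℝ ℝ (i, j)
  have hM0 : M p0 = 1 := rfl
  obtain ⟨δ, hδ, h⟩ := H72.small_comp (n := n) univ isOpen_univ p0 (mem_univ _)
    (fun p => (M p).det - 1) ((H72.cd_det hM).sub contDiff_const).contDiffOn
    (by show (M p0).det - 1 = 0; rw [hM0, Matrix.det_one, sub_self]) 0 (1 / 2) (by norm_num)
  refine ⟨min δ (1 / 2), by positivity, min_le_right _ _, fun w hw hcl x => ?_⟩
  have hf : ContDiff ℝ ∞ (fun x => fun a : Fin n × Fin n => jm w x a.1 a.2) :=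
    contDiff_pi.2 fun a => H158.contDiff_jm hw a.1 a.2
  have h1 := (h (fun x => fun a : Fin n × Fin n => jm w x a.1 a.2) hf (fun a => by
    have e : (fun x => jm w x a.1 a.2 - p0 a) = fun x => pd a.2 w x a.1 := by
      funext x
      show (1 : Matrix (Fin n) (Fin n) ℝ) a.1 a.2 + pd a.2 w x a.1 -
        (1 : Matrix (Fin n) (Fin n) ℝ) a.1 a.2 = _
      ring
    rw [e]
    exact H72.cl_pd hw (Cl.mono' hcl (le_refl _) (min_le_left _ _)) a.1 a.2)).2 0 (le_refl _) x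
  rw [norm_iteratedFDeriv_zero, Real.norm_eq_abs] at h1
  have h2 : (M fun a : Fin n × Fin n => jm w x a.1 a.2) = jm w x := rfl
  rw [h2] at h1
  linarith [(abs_le.1 h1).1]

end Vale.Agent.P088.PJ.H904
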