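import Vale.Agent.P088.R2.H904.V.Cmp
import Vale.Agent.P088.R2.H904.V.Sub

/-!
# P088, row WS: bounds of the coefficients in the new coordinates
-/

open MeasureTheory Set
open scoped ContDiff Matrix

noncomputable section

namespace Vale.Agent.P088.PJ.H904

open Vale.Agent.P088.LR

variable {n m : ℕ} {δ : ℝ}

/-- The size of the difference. -/
def Et (n m : ℕ) (δ : ℝ) : Da n m δ → ℝ := fun t => t.e

theorem et0 : ∀ t, 0 ≤ Et n m δ t := fun t => t.he

theorem PQ.w (hδ : δ ≤ 1) (a : Fin n) :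
    PQ (Et n m δ) 8 (fun t x => t.w x a) (fun t x => t.w' x a) := by
  refine PQ.of_cl zero_le_one (fun t => cd_co t.D.sw a) (fun t => cd_co t.D'.sw a)
    (fun t => Cl.mono' (Cl.co t.D.sw t.cw a) (le_refl _) hδ)
    (fun t => Cl.mono' (Cl.co t.D'.sw t.cw' a) (le_refl _) hδ) fun t => ?_
  rw [one_mul]
  exact Cl.co (t.D.sw.sub t.D'.sw) t.dw a

theorem PQ.s (i j : Fin n) :
    PQ (Et n m δ) 8 (fun t x => t.s x i j) (fun t x => t.s' x i j) := by
  have h : PQ (Et n m δ) 8 (fun t x => t.s x i j - (1 : Matrix (Fin n) (Fin n) ℝ) i j)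
      (fun t x => t.s' x i j - (1 : Matrix (Fin n) (Fin n) ℝ) i j) := by
    refine PQ.of_cl zero_le_one (fun t => (t.hs i j).sub contDiff_const)
      (fun t => (t.hs' i j).sub contDiff_const) (fun t => t.cs i j) (fun t => t.cs' i j)
      fun t => ?_
    have e : (fun x => t.s x i j - (1 : Matrix (Fin n) (Fin n) ℝ) i j -
        (t.s' x i j - (1 : Matrix (Fin n) (Fin n) ℝ) i j)) = fun x => t.s x i j - t.s' x i j := by
      funext x; ring
    rw [e, one_mul]
    exact t.ds i j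
  refine (h.add (PQ.const et0 ((1 : Matrix (Fin n) (Fin n) ℝ) i j))).congr (fun t x => ?_)
    fun t x => ?_
  · ring
  · ring

theorem PQ.b (i : Fin n) (p q : Fin m) :
    PQ (Et n m δ) 8 (fun t x => t.b i x p q) (fun t x => t.b' i x p q) := by
  refine PQ.of_cl zero_le_one (fun t => t.hb i p q) (fun t => t.hb' i p q)
    (fun t => t.cb i p q) (fun t => t.cb' i p q) fun t => ?_
  rw [one_mul]
  exact t.db i p q

theorem PQ.J (hδ : δ ≤ 1) (i j : Fin n) :
    PQ (Et n m δ) 7 (fun t x => jm t.w x i j) (fun t x => jm t.w' x i j) := by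
  refine ((PQ.const et0 ((1 : Matrix (Fin n) (Fin n) ℝ) i j)).add
    ((PQ.w hδ i).pd j)).congr (fun t x => ?_) fun t x => ?_
  · rw [jm_co t.D.sw]
  · rw [jm_co t.D'.sw]

/-- The hypothesis on `δ`. -/
structure Dl (n : ℕ) (δ : ℝ) : Prop where
  p : 0 < δ
  h : δ ≤ 1 / 2
  d : ∀ w : V n → V n, ContDiff ℝ ∞ w → Cl 1 δ w → ∀ x, 1 / 2 ≤ (jm w x).det

theorem PQ.di (hδ : Dl n δ) :
    PQ (Et n m δ) 7 (fun t x => (jm t.w x).det⁻¹) (fun t x => (jm t.w' x).det⁻¹) :=
  PQ.inv et0 (PQ.det et0 fun i j => PQ.J (by linarith [hδ.h]) i j)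
    (fun t x => hδ.d _ t.D.sw (Cl.mono' t.cw (by norm_num) (le_refl _)) x)
    (fun t x => hδ.d _ t.D'.sw (Cl.mono' t.cw' (by norm_num) (le_refl _)) x)

theorem PQ.A (hδ : Dl n δ) (i j : Fin n) :
    PQ (Et n m δ) 7 (fun t x => (jm t.w x)⁻¹ i j) (fun t x => (jm t.w' x)⁻¹ i j) := by
  refine (PQ.mul et0 (PQ.di hδ) (PQ.adj et0 (fun i j => PQ.J (by linarith [hδ.h]) i j) i j)).congr
    (fun t x => ?_) fun t x => ?_
  · rw [Matrix.inv_def, Ring.inverse_eq_inv', Matrix.smul_apply, smul_eq_mul]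
  · rw [Matrix.inv_def, Ring.inverse_eq_inv', Matrix.smul_apply, smul_eq_mul]

/-- The derivative of the inverse map. -/
theorem pd_K {w K : V n → V n} (D : Dif univ w K) (i j : Fin n) (y : V n) :
    pd i (fun y => K y j) y = (jm w (K y))⁻¹ j i := by
  have h : jm w (K y) * Matrix.of (fun j i => pd i (fun y => K y j) y) = 1 := by
    ext a b
    rw [Matrix.mul_apply]
    simp only [Matrix.of_apply, jm_co D.sw, add_mul]
    rw [Finset.sum_add_distrib]
    have h1 : ∑ x, (1 : Matrix (Fin n) (Fin n) ℝ) a x * pd b (fun y => K y x) y =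
        pd b (fun y => K y a) y := by
      rw [Finset.sum_eq_single a]
      · rw [Matrix.one_apply_eq, one_mul]
      · intro c _ hc
        rw [Matrix.one_apply_ne (Ne.symm hc), zero_mul]
      · intro h; exact absurd (Finset.mem_univ a) h
    have h2 : ∑ x, pd x (fun y => w y a) (K y) * pd b (fun y => K y x) y =
        pd b (fun y => w (K y) a) y := by
      have := congrFun (pd_comp' (f := fun x => w x a) (cd_co D.sw a) D.sK b) y
      exact this.symm
    rw [h1, h2]
    have h3 := congrFun (pd_add' (f := fun y => K y a) (g := fun y => w (K y) a)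
      (cd_co D.sK a) ((cd_co D.sw a).comp D.sK) b) y
    rw [← h3]
    have h4 : (fun y => K y a + w (K y) a) = fun y => y a := by
      funext y
      exact congrFun (D.r y) a
    rw [h4]
    unfold pd
    have h5 : HasFDerivAt (fun y : V n => y a)
        (ContinuousLinearMap.proj (R := ℝ) (φ := fun _ : Fin n => ℝ) a) y :=
      (ContinuousLinearMap.proj (R := ℝ) (φ := fun _ : Fin n => ℝ) a).hasFDerivAt
    rw [h5.fderiv]
    show (Pi.single b (1 : ℝ) : V n) a = _
    rw [Pi.single_apply, Matrix.one_apply]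
  rw [Matrix.inv_eq_right_inv h]
  rfl

theorem M0.K (hδ : Dl n δ) : M0 (Et n m δ) (fun t => t.K) (fun t => t.K') := by
  refine ⟨fun t => t.D.sK, fun t => t.D'.sK, 2, by norm_num, fun t y => ?_⟩
  have h1 : ‖t.w' (t.K' y) - t.w' (t.K y)‖ ≤ 1 / 2 * ‖t.K' y - t.K y‖ := by
    refine (convex_univ (𝕜 := ℝ) (E := V n)).norm_image_sub_le_of_norm_fderiv_le
      (f := t.w') (C := 1 / 2) (fun z _ => t.D'.sw.differentiable (by simp) z) (fun z _ => ?_)
      (mem_univ (t.K y)) (mem_univ (t.K' y))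
    have := t.cw' 1 (by norm_num) z
    rw [norm_iteratedFDeriv_one] at this
    exact this.trans hδ.h
  have h2 : ‖t.w (t.K y) - t.w' (t.K y)‖ ≤ t.e := by
    have := t.dw 0 (Nat.zero_le _) (t.K y)
    rwa [norm_iteratedFDeriv_zero] at this
  have h3 : t.K y - t.K' y = (t.w' (t.K' y) - t.w' (t.K y)) - (t.w (t.K y) - t.w' (t.K y)) := by
    have a1 := t.D.r y
    have a2 := t.D'.r y
    have a3 : t.K y = y - t.w (t.K y) := eq_sub_of_add_eq a1
    have a4 : t.K' y = y - t.w' (t.K' y) := eq_sub_of_add_eq a2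
    calc t.K y - t.K' y = (y - t.w (t.K y)) - (y - t.w' (t.K' y)) := by rw [← a3, ← a4]
      _ = _ := by abel
  have h4 : ‖t.K y - t.K' y‖ ≤ 1 / 2 * ‖t.K' y - t.K y‖ + t.e := by
    calc ‖t.K y - t.K' y‖ = ‖(t.w' (t.K' y) - t.w' (t.K y)) - (t.w (t.K y) - t.w' (t.K y))‖ := by
          rw [← h3]
      _ ≤ _ := (norm_sub_le _ _).trans (add_le_add h1 h2)
  rw [norm_sub_rev (t.K' y)] at h4
  show _ ≤ 2 * t.e
  linarith

theorem PQ.dK (hδ : Dl n δ) : ∀ k ≤ 6, ∀ i j, PQ (Et n m δ) k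
    (fun t => LR.pd i (fun y => t.K y j)) (fun t => LR.pd i (fun y => t.K' y j)) := by
  intro k
  induction k using Nat.strong_induction_on with
  | _ k ih =>
    intro hk i j
    refine (PQ.comp et0 (M0.K hδ) ((PQ.A hδ j i).le (by omega : k + 1 ≤ 7))
      fun k' hk' i j => ih k' hk' (by omega) i j).congr (fun t x => ?_) fun t x => ?_
    · exact pd_K t.D i j x
    · exact pd_K t.D' i j x

/-- Composition with the inverse map and with the scaling. -/
theorem PQ.sc (hδ : Dl n δ) {k : ℕ} (hk : k ≤ 5) {f g : Da n m δ → V n → ℝ}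
    (h : PQ (Et n m δ) (k + 2) f g) : PQ (Et n m δ) k (fun t X => f t (t.K ((3 / 2 : ℝ) • X)))
      (fun t X => g t (t.K' ((3 / 2 : ℝ) • X))) := by
  have h1 : PQ (Et n m δ) (k + 1) (fun t y => f t (t.K y)) (fun t y => g t (t.K' y)) :=
    PQ.comp et0 (M0.K hδ) h fun k' hk' i j => PQ.dK hδ k' (by omega) i j
  have hM : M0 (Et n m δ) (fun _ (X : V n) => (3 / 2 : ℝ) • X)
      (fun _ (X : V n) => (3 / 2 : ℝ) • X) :=
    ⟨fun _ => contDiff_id.const_smul (3 / 2 : ℝ), fun _ => contDiff_id.const_smul (3 / 2 : ℝ), 0,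
      le_refl _, fun t y => by simp⟩
  refine PQ.comp et0 hM h1 fun k' _ i j => ?_
  have e : ∀ y : V n, LR.pd i (fun y : V n => ((3 / 2 : ℝ) • y) j) y =
      3 / 2 * (1 : Matrix (Fin n) (Fin n) ℝ) j i := by
    intro y
    unfold LR.pd
    have h5 : HasFDerivAt (fun y : V n => ((3 / 2 : ℝ) • y) j)
        ((3 / 2 : ℝ) • (ContinuousLinearMap.proj (R := ℝ) (φ := fun _ : Fin n => ℝ) j)) y :=
      ((3 / 2 : ℝ) • (ContinuousLinearMap.proj (R := ℝ) (φ := fun _ : Fin n => ℝ) j)).hasFDerivAt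
    rw [h5.fderiv]
    show (3 / 2 : ℝ) * (Pi.single i (1 : ℝ) : V n) j = _
    rw [Pi.single_apply, Matrix.one_apply]
  exact (PQ.const et0 (3 / 2 * (1 : Matrix (Fin n) (Fin n) ℝ) j i)).congr
    (fun t x => e x) fun t x => e x

theorem PQ.pT (hδ : Dl n δ) (i j : Fin n) : PQ (Et n m δ) 3
    (fun t X => H904.pT t.s t.w t.K X i j) (fun t X => H904.pT t.s' t.w' t.K' X i j) := by
  have hJ := fun i j => PQ.J (n := n) (m := m) (δ := δ) (by linarith [hδ.h]) i j
  have h : PQ (Et n m δ) 7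
      (fun t x => (jm t.w x).det⁻¹ * ∑ k, (∑ l, jm t.w x i l * t.s x l k) * jm t.w x j k)
      (fun t x => (jm t.w' x).det⁻¹ * ∑ k, (∑ l, jm t.w' x i l * t.s' x l k) * jm t.w' x j k) :=
    PQ.mul et0 (PQ.di hδ) (PQ.sum et0 _ fun k => PQ.mul et0 (PQ.sum et0 _ fun l =>
      PQ.mul et0 (hJ i l) ((PQ.s l k).le (by norm_num))) (hJ j k))
  refine (PQ.sc hδ (k := 3) (by norm_num) (h.le (by norm_num))).congr (fun t X => ?_) fun t X => ?_
  · unfold H904.pT psh
    rw [Matrix.smul_apply, smul_eq_mul, Matrix.mul_apply]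
    simp only [Matrix.mul_apply, Matrix.transpose_apply]
  · unfold H904.pT psh
    rw [Matrix.smul_apply, smul_eq_mul, Matrix.mul_apply]
    simp only [Matrix.mul_apply, Matrix.transpose_apply]

theorem PQ.bT (hδ : Dl n δ) (a : Fin n) (p q : Fin m) : PQ (Et n m δ) 3
    (fun t X => H904.bT t.s t.w t.K t.b a X p q)
    (fun t X => H904.bT t.s' t.w' t.K' t.b' a X p q) := by
  have hJ := fun i j => PQ.J (n := n) (m := m) (δ := δ) (by linarith [hδ.h]) i j
  have h : PQ (Et n m δ) 6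
      (fun t x => (3 / 2 * (jm t.w x).det⁻¹) * ((∑ i, ∑ j, t.s x i j *
        LR.pd i (fun y => jm t.w y a j) x) * (1 : Matrix (Fin m) (Fin m) ℝ) p q +
          ∑ i, jm t.w x a i * t.b i x p q))
      (fun t x => (3 / 2 * (jm t.w' x).det⁻¹) * ((∑ i, ∑ j, t.s' x i j *
        LR.pd i (fun y => jm t.w' y a j) x) * (1 : Matrix (Fin m) (Fin m) ℝ) p q +
          ∑ i, jm t.w' x a i * t.b' i x p q)) := by
    refine PQ.mul et0 (PQ.cmul et0 _ ((PQ.di hδ).le (by norm_num))) (PQ.add (PQ.mul et0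
      (PQ.sum et0 _ fun i => PQ.sum et0 _ fun j => PQ.mul et0 ((PQ.s i j).le (by norm_num))
        ((hJ a j).pd i)) (PQ.const et0 _)) (PQ.sum et0 _ fun i => PQ.mul et0
          ((hJ a i).le (by norm_num)) ((PQ.b i p q).le (by norm_num))))
  refine (PQ.sc hδ (k := 3) (by norm_num) (h.le (by norm_num))).congr (fun t X => ?_) fun t X => ?_
  · unfold H904.bT bO
    rw [Matrix.smul_apply, smul_eq_mul, Matrix.add_apply, Matrix.smul_apply, smul_eq_mul,
      Matrix.sum_apply]
    simp only [Matrix.smul_apply, smul_eq_mul]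
  · unfold H904.bT bO
    rw [Matrix.smul_apply, smul_eq_mul, Matrix.add_apply, Matrix.smul_apply, smul_eq_mul,
      Matrix.sum_apply]
    simp only [Matrix.smul_apply, smul_eq_mul]

/-- Uniform constants for finitely many pairs. -/
theorem PQ.fin {ι J : Type*} [Fintype J] {η : ι → ℝ} {k : ℕ} (hη : ∀ t, 0 ≤ η t)
    {f g : J → ι → V n → ℝ} (h : ∀ j, PQ η k (f j) (g j)) :
    ∃ C, 0 ≤ C ∧ ∀ j t, Cl k (C * η t) (fun x => f j t x - g j t x) := by
  choose C hC hC2 using fun j => (h j).to_cl hη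
  refine ⟨∑ j, C j, Finset.sum_nonneg fun j _ => hC j, fun j t l hl x => ?_⟩
  refine ((hC2 j t).2 l hl x).trans (mul_le_mul_of_nonneg_right ?_ (hη t))
  exact Finset.single_le_sum (f := C) (fun j _ => hC j) (Finset.mem_univ j)

theorem dif_zero : Dif univ (fun _ : V n => (0 : V n)) (fun x => x) where
  sw := contDiff_const
  sK := contDiff_id
  l x := by simp
  r y := by simp
  z x hx := absurd (mem_univ x) hx
  dp x := by
    have : jm (fun _ : V n => (0 : V n)) x = 1 := by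
      ext i j
      unfold jm pd
      simp
    rw [this, Matrix.det_one]
    exact one_pos

theorem jm_zero (x : V n) : jm (fun _ : V n => (0 : V n)) x = 1 := by
  ext i j
  unfold jm pd
  simp

theorem Cl.zero' {k : ℕ} {B : ℝ} (hB : 0 ≤ B) {F : Type*} [NormedAddCommGroup F] [NormedSpace ℝ F] :
    Cl k B (fun _ : V n => (0 : F)) := by
  intro l hl x
  rw [iteratedFDeriv_zero_fun]
  simpa using hB

theorem rowCF : RowCF := by
  intro n m
  obtain ⟨δ₀, h1, h2, h3⟩ := exists_det n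
  have hδ : Dl n δ₀ := ⟨h1, h2, h3⟩
  obtain ⟨C₁, hC₁, hC₁'⟩ := PQ.fin (n := n) et0 (J := Fin n × Fin n)
    fun j => PQ.pT (n := n) (m := m) hδ j.1 j.2
  obtain ⟨C₂, hC₂, hC₂'⟩ := PQ.fin (n := n) et0 (J := Fin n × Fin m × Fin m)
    fun j => PQ.bT (n := n) (m := m) hδ j.1 j.2.1 j.2.2
  refine ⟨C₁ + C₂ + 1, δ₀, by positivity, h1, fun δ hδ0 hδ1 s₁ s₂ w₁ w₂ K₁ K₂ b hs₁ hs₂ D₁ D₂
    cs₁ cs₂ cw₁ cw₂ hb cb => ?_⟩
  have hd1 : δ ≤ 1 := by linarith
  -- the first pair compared with the flat one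
  let t₀ : Da n m δ₀ :=
    { s := s₁, s' := fun _ => 1, w := w₁, w' := fun _ => 0, K := K₁, K' := fun x => x, b := b,
      b' := fun _ _ => 0, e := δ, he := hδ0, hs := hs₁, hs' := fun _ _ => contDiff_const, D := D₁,
      D' := dif_zero, hb := hb, hb' := fun _ _ _ => contDiff_const,
      cs := fun i j => Cl.mono' (cs₁ i j) (le_refl _) hd1
      cs' := fun i j => by simp only [sub_self]; exact Cl.zero' zero_le_one
      cw := Cl.mono' cw₁ (le_refl _) hδ1
      cw' := Cl.zero' h1.le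
      cb := fun i p q => Cl.mono' (cb i p q) (le_refl _) hd1
      cb' := fun i p q => Cl.zero' zero_le_one
      ds := cs₁
      dw := by simp only [sub_zero]; exact cw₁
      db := fun i p q => by simp only [Matrix.zero_apply, sub_zero]; exact cb i p q }
  have f1 : ∀ X : V n, pT (fun _ => 1) (fun _ => 0) (fun x => x) X = 1 := by
    intro X
    unfold pT psh
    rw [jm_zero, Matrix.det_one, inv_one, one_smul, Matrix.transpose_one, Matrix.mul_one,
      Matrix.mul_one]
  have f2 : ∀ (a : Fin n) (X : V n), bT (m := m) (fun _ => 1) (fun _ => 0) (fun x => x)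
      (fun _ _ => 0) a X = 0 := by
    intro a X
    unfold bT bO
    have g1 : ∀ i j : Fin n, pd i (fun y : V n => jm (fun _ : V n => (0 : V n)) y a j)
        ((3 / 2 : ℝ) • X) = 0 := by
      intro i j
      simp only [jm_zero]
      unfold pd
      simp
    simp only [g1, smul_zero, Finset.sum_const_zero, mul_zero, zero_smul, add_zero]
  refine ⟨fun i j => ?_, fun i p q => ?_, fun η hη hdb hdw => ?_⟩
  · have h := hC₁' (i, j) t₀
    refine Cl.mono' (a := C₁ * δ) ?_ (le_refl _)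
      (mul_le_mul_of_nonneg_right (by linarith) hδ0)
    intro l hl x
    have h' := h l hl x
    have e : (fun x => pT t₀.s t₀.w t₀.K x i j - pT t₀.s' t₀.w' t₀.K' x i j) =
        fun x => pT s₁ w₁ K₁ x i j - (1 : Matrix (Fin n) (Fin n) ℝ) i j := by
      funext x
      show pT s₁ w₁ K₁ x i j - pT (fun _ => 1) (fun _ => 0) (fun x => x) x i j = _
      rw [f1]
    simp only [e] at h'
    exact h'
  · have h := hC₂' (i, p, q) t₀
    refine Cl.mono' (a := C₂ * δ) ?_ (le_refl _)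
      (mul_le_mul_of_nonneg_right (by linarith) hδ0)
    intro l hl x
    have h' := h l hl x
    have e : (fun x => bT t₀.s t₀.w t₀.K t₀.b i x p q - bT t₀.s' t₀.w' t₀.K' t₀.b' i x p q) =
        fun x => bT s₁ w₁ K₁ b i x p q := by
      funext x
      show bT s₁ w₁ K₁ b i x p q - bT (fun _ => 1) (fun _ => 0) (fun x => x)
        (fun _ _ => 0) i x p q = _
      rw [f2]
      simp
    simp only [e] at h'
    exact h'
  · let t₁ : Da n m δ₀ :=
      { s := s₁, s' := s₂, w := w₁, w' := w₂, K := K₁, K' := K₂, b := b,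
        b' := b, e := η, he := hη, hs := hs₁, hs' := hs₂, D := D₁,
        D' := D₂, hb := hb, hb' := hb,
        cs := fun i j => Cl.mono' (cs₁ i j) (le_refl _) hd1
        cs' := fun i j => Cl.mono' (cs₂ i j) (le_refl _) hd1
        cw := Cl.mono' cw₁ (le_refl _) hδ1
        cw' := Cl.mono' cw₂ (le_refl _) hδ1
        cb := fun i p q => Cl.mono' (cb i p q) (le_refl _) hd1
        cb' := fun i p q => Cl.mono' (cb i p q) (le_refl _) hd1
        ds := hdb
        dw := hdw
        db := fun i p q => by simp only [sub_self]; exact Cl.zero' hη }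
    intro i j
    have h := hC₁' (i, j) t₁
    exact Cl.mono' (a := C₁ * η) h (le_refl _) (mul_le_mul_of_nonneg_right (by linarith) hη)

end Vale.Agent.P088.PJ.H904
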