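import Vale.Agent.P088.R2.H904.V.Coef
import Vale.Agent.P088.R2.H904.V.Chg2

/-!
# P088, row WS: assembly for real systems
-/

open MeasureTheory Set Filter
open scoped ContDiff Matrix Topology

noncomputable section

namespace Vale.Agent.P088.PJ.H904

open Vale.Agent.P088.LR
open Vale.Agent.P088.HY

variable {n m : ℕ}

theorem isOpen_Bs' (ρ : ℝ) : IsOpen (Bs n ρ) := isOpen_lt continuous_sq continuous_const

theorem isOpen_Us (ρ : ℝ) : IsOpen (Us n ρ) := (isOpen_Bs' ρ).prod (isOpen_Bs' ρ)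

theorem Bs_sub_ball {ρ : ℝ} (hρ : 0 ≤ ρ) : Bs n ρ ⊆ Metric.closedBall (0 : V n) ρ := by
  intro x hx
  rw [mem_closedBall_zero_iff, pi_norm_le_iff_of_nonneg hρ]
  intro i
  have h1 : x i ^ 2 ≤ HY.sq x :=
    Finset.single_le_sum (f := fun j => x j ^ 2) (fun j _ => sq_nonneg _) (Finset.mem_univ i)
  have h2 : x i ^ 2 ≤ ρ ^ 2 := h1.trans (le_of_lt hx)
  rw [Real.norm_eq_abs]
  exact abs_le_of_sq_le_sq h2 hρ

theorem Us_sub_ball {ρ : ℝ} (hρ : 0 ≤ ρ) : Us n ρ ⊆ Metric.closedBall (0 : VV n) ρ := by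
  rintro ⟨x, y⟩ ⟨hx, hy⟩
  rw [mem_closedBall_zero_iff]
  have h1 := mem_closedBall_zero_iff.1 (Bs_sub_ball hρ hx)
  have h2 := mem_closedBall_zero_iff.1 (Bs_sub_ball hρ hy)
  exact max_le h1 h2

/-- A continuous function is integrable on `Us`. -/
theorem intOn_Us {ρ : ℝ} (hρ : 0 ≤ ρ) {g : VV n → ℝ} (hg : Continuous g) :
    IntegrableOn g (Us n ρ) :=
  (hg.continuousOn.integrableOn_compact (isCompact_closedBall (0 : VV n) ρ)).mono_set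
    (Us_sub_ball hρ)

theorem continuousOn_wT (τ : ℝ) : ContinuousOn (wT τ) (Un n) := by
  have hr : Continuous (rr : V n → ℝ) := by
    unfold rr
    exact (continuous_const.sub continuous_sq).div_const _
  have h1 : Continuous fun z : VV n => rr z.1 := hr.comp continuous_fst
  have h2 : Continuous fun z : VV n => rr z.2 := hr.comp continuous_snd
  have h3 : ∀ z ∈ Un n, 2 * rr z.1 * rr z.2 ≠ 0 := fun z hz =>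
    (mul_pos (mul_pos two_pos (rr_pos hz.1)) (rr_pos hz.2)).ne'
  have hu : ContinuousOn (uu : VV n → ℝ) (Un n) := by
    unfold uu
    refine continuousOn_const.add (ContinuousOn.div ?_ ?_ h3)
    · exact (continuous_sq.comp (continuous_fst.sub continuous_snd)).continuousOn
    · exact ((continuous_const.mul h1).mul h2).continuousOn
  unfold wT
  refine ContinuousOn.div ?_ ((h1.mul h2).pow 2).continuousOn fun z hz =>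
    pow_ne_zero 2 (mul_pos (rr_pos hz.1) (rr_pos hz.2)).ne'
  exact Real.continuous_exp.comp_continuousOn
    ((continuousOn_const.mul (hu.sub continuousOn_const)).neg)

theorem wT_nonneg (τ : ℝ) (z : VV n) : 0 ≤ wT τ z :=
  div_nonneg (Real.exp_pos _).le (sq_nonneg _)

theorem measurable_reg (τ c : ℝ) : MeasurableSet {z ∈ Un n | τ * HY.sq (z.1 - z.2) ≤ c} := by
  have h1 : MeasurableSet (Un n) := isOpen_Un.measurableSet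
  have h2 : IsClosed {z : VV n | τ * HY.sq (z.1 - z.2) ≤ c} :=
    isClosed_le (continuous_const.mul (continuous_sq.comp (continuous_fst.sub continuous_snd)))
      continuous_const
  exact h1.inter h2.measurableSet

/-- The smoothness of `δ ≤ ...` conditions is collected here. -/
theorem exists_small (l : List ℝ) (hl : ∀ a ∈ l, 0 < a) : ∃ δ : ℝ, 0 < δ ∧ ∀ a ∈ l, δ ≤ a := by
  induction l with
  | nil => exact ⟨1, one_pos, fun a ha => by simp at ha⟩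
  | cons a l ih =>
    obtain ⟨δ, hδ, h⟩ := ih fun b hb => hl b (List.mem_cons_of_mem _ hb)
    refine ⟨min a δ, lt_min (hl a (List.mem_cons_self ..)) hδ, fun b hb => ?_⟩
    rcases List.mem_cons.1 hb with rfl | hb
    · exact min_le_left _ _
    · exact (min_le_right _ _).trans (h b hb)

/-- The factor `9/4 det⁻¹`. -/
def ps (w : V n → V n) (x : V n) : ℝ := 9 / 4 * (jm w x).det⁻¹

theorem sm_ps {w K : V n → V n} (D : Dif univ w K) : ContDiff ℝ ∞ (ps w) := contDiff_const.mul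
  ((H158.smM_det (H158.contDiff_jm D.sw)).inv fun x => (D.dp x).ne')

theorem ps_mul {w K : V n → V n} (D : Dif univ w K) (x : V n) :
    ps w x * (4 / 9 * (jm w x).det) = 1 := by
  have d1 : (jm w x).det ≠ 0 := (D.dp x).ne'
  unfold ps
  field_simp

theorem ps_sq {w : V n → V n} {x : V n} (h : 1 / 2 ≤ (jm w x).det) : ps w x ^ 2 ≤ 81 / 4 := by
  unfold ps
  set a := (jm w x).det
  have h1 : 0 < a := by linarith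
  have h2 : a⁻¹ ≤ 2 := by
    rw [inv_le_comm₀ h1 (by norm_num)]; linarith
  have h3 : 0 < a⁻¹ := inv_pos.2 h1
  nlinarith

/-- The right hand sides in the new coordinates. -/
def Gx (w₁ K₁ K₂ : V n → V n) (F : Fin m → VV n → ℝ) (p : Fin m) (Z : VV n) : ℝ :=
  ps w₁ (Ps K₁ K₂ Z).1 * F p (Ps K₁ K₂ Z)

/-- The right hand sides in the new coordinates. -/
def Gy (w₂ K₁ K₂ : V n → V n) (F : Fin m → VV n → ℝ) (p : Fin m) (Z : VV n) : ℝ :=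
  ps w₂ (Ps K₁ K₂ Z).2 * F p (Ps K₁ K₂ Z)

section maps

variable {w₁ w₂ K₁ K₂ : V n → V n} (D₁ : Dif univ w₁ K₁) (D₂ : Dif univ w₂ K₂)
  {F F₁ F₂ : Fin m → VV n → ℝ}

include D₁ D₂

theorem sm_Gx (hF : ∀ p, ContDiff ℝ ∞ (F p)) (p : Fin m) : ContDiff ℝ ∞ (Gx w₁ K₁ K₂ F p) :=
  ((sm_ps D₁).comp (contDiff_fst.comp (contDiff_Ps D₁.sK D₂.sK))).mul
    ((hF p).comp (contDiff_Ps D₁.sK D₂.sK))

theorem sm_Gy (hF : ∀ p, ContDiff ℝ ∞ (F p)) (p : Fin m) : ContDiff ℝ ∞ (Gy w₂ K₁ K₂ F p) :=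
  ((sm_ps D₂).comp (contDiff_snd.comp (contDiff_Ps D₁.sK D₂.sK))).mul
    ((hF p).comp (contDiff_Ps D₁.sK D₂.sK))

/-- The compatibility condition. -/
theorem compat {s₁ s₂ : MF n} {b₁ b₂ : Fin n → V n → Matrix (Fin m) (Fin m) ℝ}
    (hF₁ : ∀ p, ContDiff ℝ ∞ (F₁ p)) (hF₂ : ∀ p, ContDiff ℝ ∞ (F₂ p)) {Z : VV n} (p : Fin m)
    (h : LyG s₂ (e0 b₂) F₁ p (Ps K₁ K₂ Z) = LxG s₁ (e0 b₁) F₂ p (Ps K₁ K₂ Z)) :
    LyG (pT s₂ w₂ K₂) (e0 (bT s₂ w₂ K₂ b₂)) (Gx w₁ K₁ K₂ F₁) p Z =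
      LxG (pT s₁ w₁ K₁) (e0 (bT s₁ w₁ K₁ b₁)) (Gy w₂ K₁ K₂ F₂) p Z := by
  set z := Ps K₁ K₂ Z with hz
  have hz1 : Ph w₁ w₂ z = Z := Ph_Ps D₁ D₂ Z
  have a1 := LyG_Ph (s := s₂) D₁ D₂ b₂ isOpen_univ (U := Gx w₁ K₁ K₂ F₁)
    (fun q => (sm_Gx D₁ D₂ hF₁ q).contDiffOn) (z := z) (mem_univ _) p
  have a2 := LxG_Ph (s := s₁) D₁ D₂ b₁ isOpen_univ (U := Gy w₂ K₁ K₂ F₂)
    (fun q => (sm_Gy D₁ D₂ hF₂ q).contDiffOn) (z := z) (mem_univ _) p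
  have e1 : (fun q z => Gx w₁ K₁ K₂ F₁ q (Ph w₁ w₂ z)) = fun q z => ps w₁ z.1 * F₁ q z := by
    funext q z
    unfold Gx
    rw [Ps_Ph D₁ D₂]
  have e2 : (fun q z => Gy w₂ K₁ K₂ F₂ q (Ph w₁ w₂ z)) = fun q z => ps w₂ z.2 * F₂ q z := by
    funext q z
    unfold Gy
    rw [Ps_Ph D₁ D₂]
  rw [e1, hz1] at a1
  rw [e2, hz1] at a2
  rw [LyG_mul_fst isOpen_univ s₂ b₂ (ps w₁) (sm_ps D₁) (fun q => (hF₁ q).contDiffOn)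
    (mem_univ z) p] at a1
  rw [LxG_mul_snd isOpen_univ s₁ b₁ (ps w₂) (sm_ps D₂) (fun q => (hF₂ q).contDiffOn)
    (mem_univ z) p] at a2
  rw [h] at a1
  have b1 := ps_mul D₁ z.1
  have b2 := ps_mul D₂ z.2
  calc LyG (pT s₂ w₂ K₂) (e0 (bT s₂ w₂ K₂ b₂)) (Gx w₁ K₁ K₂ F₁) p Z
      = ps w₂ z.2 * (4 / 9 * (jm w₂ z.2).det *
          LyG (pT s₂ w₂ K₂) (e0 (bT s₂ w₂ K₂ b₂)) (Gx w₁ K₁ K₂ F₁) p Z) := by
        rw [← mul_assoc, b2, one_mul]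
    _ = ps w₁ z.1 * (ps w₂ z.2 * LxG s₁ (e0 b₁) F₂ p z) := by rw [← a1]; ring
    _ = ps w₁ z.1 * (4 / 9 * (jm w₁ z.1).det *
          LxG (pT s₁ w₁ K₁) (e0 (bT s₁ w₁ K₁ b₁)) (Gy w₂ K₁ K₂ F₂) p Z) := by rw [a2]
    _ = _ := by rw [← mul_assoc, b1, one_mul]

/-- The equation in the old coordinates. -/
theorem back_x {s₁ : MF n} {b₁ : Fin n → V n → Matrix (Fin m) (Fin m) ℝ}
    {v : Fin m → VV n → ℝ} (sv : ∀ p, ContDiffOn ℝ ∞ (v p) (Un n)) {z : VV n}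
    (hz : Ph w₁ w₂ z ∈ Un n) (p : Fin m)
    (h : LxG (pT s₁ w₁ K₁) (e0 (bT s₁ w₁ K₁ b₁)) v p (Ph w₁ w₂ z) =
      Gx w₁ K₁ K₂ F₁ p (Ph w₁ w₂ z)) :
    LxG s₁ (e0 b₁) (fun p z => v p (Ph w₁ w₂ z)) p z = F₁ p z := by
  rw [LxG_Ph (s := s₁) D₁ D₂ b₁ isOpen_Un (U := v) sv hz p, h]
  unfold Gx
  rw [Ps_Ph D₁ D₂, ← mul_assoc, mul_comm (4 / 9 * (jm w₁ z.1).det), ps_mul D₁, one_mul]

theorem back_y {s₂ : MF n} {b₂ : Fin n → V n → Matrix (Fin m) (Fin m) ℝ}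
    {v : Fin m → VV n → ℝ} (sv : ∀ p, ContDiffOn ℝ ∞ (v p) (Un n)) {z : VV n}
    (hz : Ph w₁ w₂ z ∈ Un n) (p : Fin m)
    (h : LyG (pT s₂ w₂ K₂) (e0 (bT s₂ w₂ K₂ b₂)) v p (Ph w₁ w₂ z) =
      Gy w₂ K₁ K₂ F₂ p (Ph w₁ w₂ z)) :
    LyG s₂ (e0 b₂) (fun p z => v p (Ph w₁ w₂ z)) p z = F₂ p z := by
  rw [LyG_Ph (s := s₂) D₁ D₂ b₂ isOpen_Un (U := v) sv hz p, h]
  unfold Gy
  rw [Ps_Ph D₁ D₂, ← mul_assoc, mul_comm (4 / 9 * (jm w₂ z.2).det), ps_mul D₂, one_mul]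

end maps

/-- The weighted right hand side. -/
def gg (F₁ F₂ : Fin m → VV n → ℝ) (a : ℝ) (z : VV n) : ℝ :=
  (∑ p, F₁ p z ^ 2 + ∑ p, F₂ p z ^ 2) * Real.exp (-(a * HY.sq (z.1 - z.2)))

theorem gg_nonneg (F₁ F₂ : Fin m → VV n → ℝ) (a : ℝ) (z : VV n) : 0 ≤ gg F₁ F₂ a z :=
  mul_nonneg (add_nonneg (Finset.sum_nonneg fun p _ => sq_nonneg _)
    (Finset.sum_nonneg fun p _ => sq_nonneg _)) (Real.exp_pos _).le

theorem gg_cont {F₁ F₂ : Fin m → VV n → ℝ} (hF₁ : ∀ p, ContDiff ℝ ∞ (F₁ p))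
    (hF₂ : ∀ p, ContDiff ℝ ∞ (F₂ p)) (a : ℝ) : Continuous (gg F₁ F₂ a) := by
  have c1 : Continuous fun z => ∑ p, F₁ p z ^ 2 :=
    continuous_finsetSum _ fun p _ => (hF₁ p).continuous.pow 2
  have c2 : Continuous fun z => ∑ p, F₂ p z ^ 2 :=
    continuous_finsetSum _ fun p _ => (hF₂ p).continuous.pow 2
  exact (c1.add c2).mul (Real.continuous_exp.comp ((continuous_const.mul
    (continuous_sq.comp (continuous_fst.sub continuous_snd))).neg))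

/-- The integrand of the right hand side of (SOLG). -/
def II (τ : ℝ) (G₁ G₂ : Fin m → VV n → ℝ) (p : Fin m) (Z : VV n) : ℝ :=
  (rr Z.1 ^ 4 * G₁ p Z ^ 2 + rr Z.2 ^ 4 * G₂ p Z ^ 2) * wT τ Z

theorem II_nonneg (τ : ℝ) (G₁ G₂ : Fin m → VV n → ℝ) (p : Fin m) (Z : VV n) :
    0 ≤ II τ G₁ G₂ p Z := mul_nonneg (by positivity) (wT_nonneg _ _)

theorem II_cont (τ : ℝ) {G₁ G₂ : Fin m → VV n → ℝ} (h₁ : ∀ p, ContDiff ℝ ∞ (G₁ p))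
    (h₂ : ∀ p, ContDiff ℝ ∞ (G₂ p)) (p : Fin m) : ContinuousOn (II τ G₁ G₂ p) (Un n) := by
  have crr : Continuous (rr : V n → ℝ) := by
    unfold rr
    exact (continuous_const.sub continuous_sq).div_const _
  exact (((((crr.comp continuous_fst).pow 4).mul ((h₁ p).continuous.pow 2)).add
      (((crr.comp continuous_snd).pow 4).mul ((h₂ p).continuous.pow 2))).continuousOn).mul
      (continuousOn_wT τ)

theorem II_le {w₁ w₂ K₁ K₂ : V n → V n} {F₁ F₂ : Fin m → VV n → ℝ}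
    (hdet₁ : ∀ x, 1 / 2 ≤ (jm w₁ x).det) (hdet₂ : ∀ x, 1 / 2 ≤ (jm w₂ x).det)
    (hsupp : ∀ z : VV n, z.2 ∉ bl0 n → ∀ p, F₁ p z = 0 ∧ F₂ p z = 0) {CW a τ : ℝ} (hCW : 0 < CW)
    {Z : VV n} (W1 : (Ps K₁ K₂ Z).2 ∈ bl0 n →
      HY.rr Z.1 ^ 4 * HY.wT τ Z ≤
        CW * Real.exp (-(a * HY.sq ((Ps K₁ K₂ Z).1 - (Ps K₁ K₂ Z).2))) ∧
      HY.rr Z.2 ^ 4 * HY.wT τ Z ≤
        CW * Real.exp (-(a * HY.sq ((Ps K₁ K₂ Z).1 - (Ps K₁ K₂ Z).2)))) :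
    ∑ p, II τ (Gx w₁ K₁ K₂ F₁) (Gy w₂ K₁ K₂ F₂) p Z ≤
      81 / 4 * CW * gg F₁ F₂ a (Ps K₁ K₂ Z) := by
  by_cases hy : (Ps K₁ K₂ Z).2 ∈ bl0 n
  · obtain ⟨v1, v2⟩ := W1 hy
    set E := Real.exp (-(a * HY.sq ((Ps K₁ K₂ Z).1 - (Ps K₁ K₂ Z).2))) with hE
    have e1 : ∀ p, II τ (Gx w₁ K₁ K₂ F₁) (Gy w₂ K₁ K₂ F₂) p Z ≤
        81 / 4 * CW * ((F₁ p (Ps K₁ K₂ Z) ^ 2 + F₂ p (Ps K₁ K₂ Z) ^ 2) * E) := by
      intro p
      have u1 : Gx w₁ K₁ K₂ F₁ p Z ^ 2 ≤ 81 / 4 * F₁ p (Ps K₁ K₂ Z) ^ 2 := by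
        unfold Gx
        rw [mul_pow]
        exact mul_le_mul_of_nonneg_right (ps_sq (hdet₁ _)) (sq_nonneg _)
      have u2 : Gy w₂ K₁ K₂ F₂ p Z ^ 2 ≤ 81 / 4 * F₂ p (Ps K₁ K₂ Z) ^ 2 := by
        unfold Gy
        rw [mul_pow]
        exact mul_le_mul_of_nonneg_right (ps_sq (hdet₂ _)) (sq_nonneg _)
      have u3 := mul_le_mul u1 v1 (mul_nonneg (by positivity) (wT_nonneg _ _)) (by positivity)
      have u4 := mul_le_mul u2 v2 (mul_nonneg (by positivity) (wT_nonneg _ _)) (by positivity)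
      calc II τ (Gx w₁ K₁ K₂ F₁) (Gy w₂ K₁ K₂ F₂) p Z
          = Gx w₁ K₁ K₂ F₁ p Z ^ 2 * (rr Z.1 ^ 4 * wT τ Z) +
              Gy w₂ K₁ K₂ F₂ p Z ^ 2 * (rr Z.2 ^ 4 * wT τ Z) := by
            unfold II; ring
        _ ≤ 81 / 4 * F₁ p (Ps K₁ K₂ Z) ^ 2 * (CW * E) +
            81 / 4 * F₂ p (Ps K₁ K₂ Z) ^ 2 * (CW * E) := add_le_add u3 u4
        _ = _ := by ring
    refine (Finset.sum_le_sum fun p _ => e1 p).trans (le_of_eq ?_)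
    rw [← Finset.mul_sum, ← Finset.sum_mul, Finset.sum_add_distrib]
    rfl
  · have e1 : ∀ p, II τ (Gx w₁ K₁ K₂ F₁) (Gy w₂ K₁ K₂ F₂) p Z = 0 := by
      intro p
      obtain ⟨v1, v2⟩ := hsupp _ hy p
      unfold II Gx Gy
      rw [v1, v2]
      ring
    simp only [e1, Finset.sum_const_zero]
    exact mul_nonneg (by positivity) (gg_nonneg _ _ _ _)

/-- The right hand side. -/
theorem rhs_le {w₁ w₂ K₁ K₂ : V n → V n} (D₁ : Dif univ w₁ K₁) (D₂ : Dif univ w₂ K₂)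
    {F₁ F₂ : Fin m → VV n → ℝ}
    (hF₁ : ∀ p, ContDiff ℝ ∞ (F₁ p)) (hF₂ : ∀ p, ContDiff ℝ ∞ (F₂ p))
    (hdet₁ : ∀ x, 1 / 2 ≤ (jm w₁ x).det) (hdet₂ : ∀ x, 1 / 2 ≤ (jm w₂ x).det)
    (hsupp : ∀ z : VV n, z.2 ∉ bl0 n → ∀ p, F₁ p z = 0 ∧ F₂ p z = 0) {CW CM a τ : ℝ}
    (hCW : 0 < CW)
    (W1 : ∀ Z ∈ Un n, (Ps K₁ K₂ Z).2 ∈ bl0 n →
      HY.rr Z.1 ^ 4 * HY.wT τ Z ≤
        CW * Real.exp (-(a * HY.sq ((Ps K₁ K₂ Z).1 - (Ps K₁ K₂ Z).2))) ∧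
      HY.rr Z.2 ^ 4 * HY.wT τ Z ≤
        CW * Real.exp (-(a * HY.sq ((Ps K₁ K₂ Z).1 - (Ps K₁ K₂ Z).2))))
    (M1 : ∀ g : VV n → ℝ, (∀ z ∈ Us n (7 / 4), 0 ≤ g z) → IntegrableOn g (Us n (7 / 4)) →
      IntegrableOn (fun Z => g (Ps K₁ K₂ Z)) (Un n) ∧
      ∫ Z in Un n, g (Ps K₁ K₂ Z) ≤ CM * ∫ z in Us n (7 / 4), g z) :
    (∀ p, IntegrableOn (II τ (Gx w₁ K₁ K₂ F₁) (Gy w₂ K₁ K₂ F₂) p) (Un n)) ∧
    ∑ p, ∫ Z in Un n, II τ (Gx w₁ K₁ K₂ F₁) (Gy w₂ K₁ K₂ F₂) p Z ≤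
      81 / 4 * CW * (CM * ∫ z in Us n (7 / 4), gg F₁ F₂ a z) := by
  obtain ⟨m1, m2⟩ := M1 (gg F₁ F₂ a) (fun z _ => gg_nonneg _ _ _ z)
    (intOn_Us (by norm_num) (gg_cont hF₁ hF₂ a))
  have mUn : MeasurableSet (Un n) := isOpen_Un.measurableSet
  have hIs : ∀ Z ∈ Un n, ∑ p, II τ (Gx w₁ K₁ K₂ F₁) (Gy w₂ K₁ K₂ F₂) p Z ≤
      81 / 4 * CW * gg F₁ F₂ a (Ps K₁ K₂ Z) := fun Z hZ =>
    II_le hdet₁ hdet₂ hsupp hCW (W1 Z hZ)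
  have iI : ∀ p, IntegrableOn (II τ (Gx w₁ K₁ K₂ F₁) (Gy w₂ K₁ K₂ F₂) p) (Un n) := by
    intro p
    refine Integrable.mono' (m1.const_mul (81 / 4 * CW)) ((II_cont τ (sm_Gx D₁ D₂ hF₁)
      (sm_Gy D₁ D₂ hF₂) p).aestronglyMeasurable mUn) ?_
    refine (ae_restrict_iff' mUn).2 (Eventually.of_forall fun Z hZ => ?_)
    rw [Real.norm_eq_abs, abs_of_nonneg (II_nonneg _ _ _ p Z)]
    exact (Finset.single_le_sum (f := fun p => II τ (Gx w₁ K₁ K₂ F₁) (Gy w₂ K₁ K₂ F₂) p Z)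
      (fun p _ => II_nonneg _ _ _ p Z) (Finset.mem_univ p)).trans (hIs Z hZ)
  refine ⟨iI, ?_⟩
  calc ∑ p, ∫ Z in Un n, II τ (Gx w₁ K₁ K₂ F₁) (Gy w₂ K₁ K₂ F₂) p Z
      = ∫ Z in Un n, ∑ p, II τ (Gx w₁ K₁ K₂ F₁) (Gy w₂ K₁ K₂ F₂) p Z :=
        (integral_finsetSum _ fun p _ => iI p).symm
    _ ≤ ∫ Z in Un n, 81 / 4 * CW * gg F₁ F₂ a (Ps K₁ K₂ Z) :=
        setIntegral_mono_on (integrable_finsetSum _ fun p _ => iI p)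
          (m1.const_mul (81 / 4 * CW)) mUn hIs
    _ = 81 / 4 * CW * ∫ Z in Un n, gg F₁ F₂ a (Ps K₁ K₂ Z) := integral_const_mul _ _
    _ ≤ _ := mul_le_mul_of_nonneg_left m2 (by positivity)

/-- The left hand side. -/
theorem lhs_le {w₁ w₂ : V n → V n} (sPh : ContDiff ℝ ∞ (Ph w₁ w₂))
    (hPh : ∀ z ∈ Un n, Ph w₁ w₂ z ∈ Un n) {CW CM τ c : ℝ} (hCW : 0 < CW)
    (W2 : ∀ z ∈ Un n, τ * HY.sq (z.1 - z.2) ≤ c → 1 ≤ CW * HY.wT τ (Ph w₁ w₂ z))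
    (M2 : ∀ G : VV n → ℝ, (∀ Z ∈ Un n, 0 ≤ G Z) → IntegrableOn G (Un n) →
      ∀ R ⊆ Un n, MeasurableSet R → IntegrableOn (fun z => G (Ph w₁ w₂ z)) R ∧
      ∫ z in R, G (Ph w₁ w₂ z) ≤ CM * ∫ Z in Un n, G Z)
    {v : Fin m → VV n → ℝ} (sv : ∀ p, ContDiffOn ℝ ∞ (v p) (Un n))
    (iv : ∀ p, IntegrableOn (fun z => v p z ^ 2 * wT τ z) (Un n)) :
    (∀ p, ContDiffOn ℝ ∞ (fun z => v p (Ph w₁ w₂ z)) (Un n)) ∧
    IntegrableOn (fun z => ∑ p, v p (Ph w₁ w₂ z) ^ 2) {z ∈ Un n | τ * HY.sq (z.1 - z.2) ≤ c} ∧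
    ∫ z in {z ∈ Un n | τ * HY.sq (z.1 - z.2) ≤ c}, ∑ p, v p (Ph w₁ w₂ z) ^ 2 ≤
      CW * (CM * ∑ p, ∫ z in Un n, v p z ^ 2 * wT τ z) := by
  set w : Fin m → VV n → ℝ := fun p z => v p (Ph w₁ w₂ z) with hw
  have sw : ∀ p, ContDiffOn ℝ ∞ (w p) (Un n) := fun p =>
    (sv p).comp sPh.contDiffOn fun z hz => hPh z hz
  set R : Set (VV n) := {z ∈ Un n | τ * HY.sq (z.1 - z.2) ≤ c} with hR
  have mR : MeasurableSet R := measurable_reg τ c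
  have RU : R ⊆ Un n := fun z hz => hz.1
  set G : VV n → ℝ := fun Z => ∑ p, v p Z ^ 2 * wT τ Z with hGd
  have G0 : ∀ Z, 0 ≤ G Z := fun Z => Finset.sum_nonneg fun p _ =>
    mul_nonneg (sq_nonneg _) (wT_nonneg _ _)
  have iG : IntegrableOn G (Un n) := integrable_finsetSum _ fun p _ => iv p
  obtain ⟨m3, m4⟩ := M2 G (fun Z _ => G0 Z) iG R RU mR
  have hwG : ∀ z ∈ R, ∑ p, w p z ^ 2 ≤ CW * G (Ph w₁ w₂ z) := by
    intro z hz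
    have h1 := W2 z hz.1 hz.2
    simp only [hGd, hw]
    rw [← Finset.sum_mul]
    have h2 : 0 ≤ ∑ p, v p (Ph w₁ w₂ z) ^ 2 := Finset.sum_nonneg fun p _ => sq_nonneg _
    nlinarith
  have iw : IntegrableOn (fun z => ∑ p, w p z ^ 2) R := by
    refine Integrable.mono' (m3.const_mul CW) ?_ ?_
    · have hc : ContinuousOn (fun z => ∑ p, w p z ^ 2) R :=
        continuousOn_finsetSum _ fun p _ => ((sw p).continuousOn.mono RU).pow 2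
      exact hc.aestronglyMeasurable mR
    · refine (ae_restrict_iff' mR).2 (Eventually.of_forall fun z hz => ?_)
      rw [Real.norm_eq_abs, abs_of_nonneg (Finset.sum_nonneg fun p _ => sq_nonneg _)]
      exact hwG z hz
  refine ⟨sw, iw, ?_⟩
  have z2 : ∫ Z in Un n, G Z = ∑ p, ∫ Z in Un n, v p Z ^ 2 * wT τ Z :=
    integral_finsetSum _ fun p _ => iv p
  calc ∫ z in R, ∑ p, w p z ^ 2 ≤ ∫ z in R, CW * G (Ph w₁ w₂ z) :=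
        setIntegral_mono_on iw (m3.const_mul CW) mR hwG
    _ = CW * ∫ z in R, G (Ph w₁ w₂ z) := integral_const_mul _ _
    _ ≤ CW * (CM * ∫ Z in Un n, G Z) := mul_le_mul_of_nonneg_left m4 hCW.le
    _ = _ := by rw [z2]

/-- The coefficients satisfy the hypotheses of (SOLG). -/
theorem coef_ok {s : MF n} (hs : SmM s) (hsy : ∀ x, (s x).IsSymm) {w K : V n → V n}
    (D : Dif univ w K) (hd : ∀ a, ∀ x ∈ Bs n 2, dv s (fun y => ((y a + w y a : ℝ) : ℂ)) x = 0)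
    (hG : ∀ X ∈ Bn n, K ((3 / 2 : ℝ) • X) ∈ Bs n (7 / 4))
    {b : Fin n → V n → Matrix (Fin m) (Fin m) ℝ} (hb : ∀ i p q, ContDiff ℝ ∞ fun x => b i x p q)
    {ε₁ ε : ℝ} (h : ε₁ ≤ ε)
    (f1 : ∀ i j, Cl 3 ε₁ (fun x => pT s w K x i j - (1 : Matrix (Fin n) (Fin n) ℝ) i j))
    (f2 : ∀ i p q, Cl 3 ε₁ (fun x => bT s w K b i x p q)) :
    TS n 3 ε (pT s w K) ∧ CoOk 3 ε 1 (e0 (bT s w K b)) := by
  have hBs : ∀ x : V n, x ∈ Bs n (7 / 4) → x ∈ Bs n 2 := fun x hx => by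
    have h1 : HY.sq x < (7 / 4 : ℝ) ^ 2 := hx
    show HY.sq x < (2 : ℝ) ^ 2
    linarith
  exact ⟨⟨sm_pT hs D, sy_pT hsy D, fun i j => Cl.mono' (f1 i j) (le_refl _) h,
    fun X hX j => dv_pT hs hsy D hd (hBs _ (hG X hX)) j⟩,
    ⟨fun l p q => cd_bT hs D hb l p q, fun p q => contDiff_const,
      fun l p q => Cl.mono' (f2 l p q) (le_refl _) h, fun p q => Cl.zero' zero_le_one⟩⟩

theorem rowWSR (hS : HY.RowSOLG) (hHC : RowHC) (hGG : RowGG) (hMM : RowMM) (hWT : RowWT) :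
    RowWSR := by
  intro n m hn
  obtain ⟨CS, εS, hCS, hεS, hS⟩ := hS n m hn
  obtain ⟨τS, hτS, hS⟩ := hS 1 one_pos
  obtain ⟨CF, δF, hCF, hδF, hF⟩ := rowCF n m
  obtain ⟨δG, hδG, hG⟩ := hGG n
  obtain ⟨CM, δM, hCM, hδM, hM⟩ := hMM n
  obtain ⟨CW, c, δW, hCW, hc, hδW, hW⟩ := hWT n
  obtain ⟨KH, CH, δH, hCH, hδH, hH⟩ := hHC n 8 (by omega)
  obtain ⟨δD, hδD, -, hD⟩ := exists_det n
  set A : ℝ := CH + 1 with hA
  have hA0 : 0 < A := by positivity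
  obtain ⟨δ₀, hδ₀, hsm⟩ := exists_small [δH, δF / A, εS / (CF * A), δG / A, δM / A, δW / A,
    δD / A, 1 / A] (by
      intro a ha
      simp only [List.mem_cons, List.not_mem_nil, or_false] at ha
      rcases ha with rfl | rfl | rfl | rfl | rfl | rfl | rfl | rfl <;> positivity)
  simp only [List.mem_cons, List.not_mem_nil, or_false, forall_eq_or_imp, forall_eq] at hsm
  obtain ⟨q1, q2, q3, q4, q5, q6, q7, q8⟩ := hsm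
  rw [le_div_iff₀ (by positivity)] at q2 q3 q4 q5 q6 q7 q8
  refine ⟨max KH 8, CW * CM * CS * (81 / 4 * CW) * CM, c, δ₀, max τS 1, by positivity, hc, hδ₀,
    by positivity, ?_⟩
  intro s₁ s₂ b₁ b₂ h₁ h₂ hcom η τ hη hDB hτ hτη F₁ F₂ hF₁ hF₂ hcomp hsupp
  have hτS' : τS ≤ τ := (le_max_left _ _).trans hτ
  have hτ1 : 1 ≤ τ := (le_max_right _ _).trans hτ
  have hτ0 : 0 < τ := by linarith
  have k1 : KH ≤ max KH 8 := le_max_left _ _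
  have k2 : 8 ≤ max KH 8 := le_max_right _ _
  -- harmonic coordinates
  obtain ⟨w₁, w₂, K₁, K₂, D₁, D₂, cw₁, cw₂, cw, dv₁, dv₂⟩ := hH s₁ s₂ h₁.sm h₂.sm h₁.sy h₂.sy
    h₁.one h₂.one δ₀ η hδ₀.le q1 hη (fun i j => Cl.mono' (h₁.cl i j) k1 (le_refl _))
    (fun i j => Cl.mono' (h₂.cl i j) k1 (le_refl _))
    (fun i j => Cl.mono' (hDB i j) k1 (le_refl _))
  have hAδ : CH * δ₀ ≤ δ₀ * A := by rw [hA]; nlinarith
  have hAη : CH * η ≤ A * η := mul_le_mul_of_nonneg_right (by rw [hA]; linarith) hη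
  have hηA : η ≤ A * η := by rw [hA]; nlinarith
  have hδA : δ₀ ≤ δ₀ * A := by rw [hA]; nlinarith
  have cw₁' : Cl 8 (δ₀ * A) w₁ := Cl.mono' cw₁ (le_refl _) hAδ
  have cw₂' : Cl 8 (δ₀ * A) w₂ := Cl.mono' cw₂ (le_refl _) hAδ
  have cw' : Cl 8 (A * η) (fun x => w₁ x - w₂ x) := Cl.mono' cw (le_refl _) hAη
  have h18 : 1 ≤ 8 := by norm_num
  -- the coefficients
  obtain ⟨f1, f2, f3⟩ := hF (δ₀ * A) (by positivity) q2 s₁ s₂ w₁ w₂ K₁ K₂ b₁ h₁.sm h₂.sm D₁ D₂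
    (fun i j => Cl.mono' (h₁.cl i j) k2 hδA) (fun i j => Cl.mono' (h₂.cl i j) k2 hδA) cw₁' cw₂'
    h₁.sb (fun i p q => Cl.mono' (h₁.cb i p q) k2 hδA)
  have f3 := f3 (A * η) (by positivity) (fun i j => Cl.mono' (hDB i j) k2 hηA) cw'
  obtain ⟨g1, g2, -⟩ := hF (δ₀ * A) (by positivity) q2 s₂ s₁ w₂ w₁ K₂ K₁ b₂ h₂.sm h₁.sm D₂ D₁
    (fun i j => Cl.mono' (h₂.cl i j) k2 hδA) (fun i j => Cl.mono' (h₁.cl i j) k2 hδA) cw₂' cw₁'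
    h₂.sb (fun i p q => Cl.mono' (h₂.cb i p q) k2 hδA)
  have hCε : CF * (δ₀ * A) ≤ εS := by
    calc CF * (δ₀ * A) = δ₀ * (CF * A) := by ring
      _ ≤ εS := q3
  have hτε : τ * (CF * (A * η)) ≤ εS := by
    calc τ * (CF * (A * η)) = (τ * η) * (CF * A) := by ring
      _ ≤ δ₀ * (CF * A) := mul_le_mul_of_nonneg_right hτη (by positivity)
      _ ≤ εS := q3
  have hτA : τ * (A * η) ≤ 1 := by
    calc τ * (A * η) = (τ * η) * A := by ring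
      _ ≤ δ₀ * A := mul_le_mul_of_nonneg_right hτη hA0.le
      _ ≤ 1 := q8
  -- geometry
  have gG₁ := hG w₁ K₁ D₁ (Cl.mono' cw₁' h18 q4)
  have gG₂ := hG w₂ K₂ D₂ (Cl.mono' cw₂' h18 q4)
  have hPh : ∀ z ∈ Un n, Ph w₁ w₂ z ∈ Un n := fun z hz => ⟨gG₁.2.1 _ hz.1, gG₂.2.1 _ hz.2⟩
  have hPs : ∀ Z ∈ Un n, Ps K₁ K₂ Z ∈ Us n (7 / 4) := fun Z hZ => ⟨gG₁.2.2 _ hZ.1, gG₂.2.2 _ hZ.2⟩
  obtain ⟨T₁, O₁⟩ := coef_ok h₁.sm h₁.sy D₁ dv₁ gG₁.2.2 h₁.sb hCε f1 f2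
  obtain ⟨T₂, O₂⟩ := coef_ok h₂.sm h₂.sy D₂ dv₂ gG₂.2.2 h₂.sb hCε g1 g2
  have hCom : Com (e0 (bT s₁ w₁ K₁ b₁)) (e0 (bT s₂ w₂ K₂ b₂)) :=
    ⟨fun k l x y => bT_comm hcom k l x y, fun k x y => by simp [e0], fun l x y => by simp [e0],
      fun x y => by simp [e0]⟩
  have hdet₁ : ∀ x, 1 / 2 ≤ (jm w₁ x).det := hD w₁ D₁.sw (Cl.mono' cw₁' h18 q7)
  have hdet₂ : ∀ x, 1 / 2 ≤ (jm w₂ x).det := hD w₂ D₂.sw (Cl.mono' cw₂' h18 q7)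
  -- the weights
  have hcw : ∀ x, ‖w₁ x - w₂ x‖ ≤ A * η := fun x => by
    have := cw' 0 (Nat.zero_le _) x
    rwa [norm_iteratedFDeriv_zero] at this
  obtain ⟨W1, W2⟩ := hW w₁ w₂ K₁ K₂ D₁ D₂ (Cl.mono' cw₁' h18 q6)
    (Cl.mono' cw₂' h18 q6) (A * η) τ (by positivity) hcw hτ1 hτA
  obtain ⟨M1, M2⟩ := hM w₁ w₂ K₁ K₂ D₁ D₂ (Cl.mono' cw₁' h18 q5) (Cl.mono' cw₂' h18 q5)
  obtain ⟨iI, est1⟩ := rhs_le D₁ D₂ hF₁ hF₂ hdet₁ hdet₂ hsupp hCW W1 M1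
  -- the solution
  obtain ⟨v, sv, e1, e2, iv, est⟩ := hS (pT s₁ w₁ K₁) (pT s₂ w₂ K₂) (e0 (bT s₁ w₁ K₁ b₁))
    (e0 (bT s₂ w₂ K₂ b₂)) T₁ T₂ O₁ O₂ hCom (CF * (A * η)) τ (by positivity) f3 hτS' hτε
    (Gx w₁ K₁ K₂ F₁) (Gy w₂ K₁ K₂ F₂) (fun p => (sm_Gx D₁ D₂ hF₁ p).contDiffOn)
    (fun p => (sm_Gy D₁ D₂ hF₂ p).contDiffOn)
    (fun Z hZ p => compat D₁ D₂ hF₁ hF₂ p (hcomp _ (hPs Z hZ) p)) iI
  obtain ⟨sw, iw, est2⟩ := lhs_le (contDiff_Ph D₁.sw D₂.sw) hPh hCW W2 M2 sv iv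
  refine ⟨fun p z => v p (Ph w₁ w₂ z), sw, fun z hz p => back_x D₁ D₂ sv (hPh z hz) p
    (e1 _ (hPh z hz) p), fun z hz p => back_y D₁ D₂ sv (hPh z hz) p (e2 _ (hPh z hz) p), iw, ?_⟩
  have z5 : 0 ≤ CS / τ := by positivity
  calc ∫ z in {z ∈ Un n | τ * HY.sq (z.1 - z.2) ≤ 16 * n}, ∑ p, v p (Ph w₁ w₂ z) ^ 2
      ≤ CW * (CM * ∑ p, ∫ z in Un n, v p z ^ 2 * wT τ z) := est2
    _ ≤ CW * (CM * (CS / τ * ∑ p, ∫ Z in Un n, II τ (Gx w₁ K₁ K₂ F₁) (Gy w₂ K₁ K₂ F₂) p Z)) :=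
        mul_le_mul_of_nonneg_left (mul_le_mul_of_nonneg_left est hCM.le) hCW.le
    _ ≤ CW * (CM * (CS / τ * (81 / 4 * CW * (CM * ∫ z in Us n (7 / 4), gg F₁ F₂ (c * τ) z)))) :=
        mul_le_mul_of_nonneg_left (mul_le_mul_of_nonneg_left
          (mul_le_mul_of_nonneg_left est1 z5) hCM.le) hCW.le
    _ = CW * CM * CS * (81 / 4 * CW) * CM / τ * ∫ z in Us n (7 / 4), gg F₁ F₂ (c * τ) z := by ring

end Vale.Agent.P088.PJ.H904
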