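import Vale.Agent.P088.R2.H904.V.Sub
import Vale.Agent.P088.R2.H558.E1

/-!
# P088, row WS: geometry of the maps and change of variables in integrals
-/

open MeasureTheory Set Filter
open scoped ContDiff Matrix Topology NNReal ENNReal

noncomputable section

namespace Vale.Agent.P088.PJ.H904

open Vale.Agent.P088.LR
open Vale.Agent.P088.HY

variable {n : ℕ}

theorem sq_add_le (a b : V n) : HY.sq (a + b) ≤ 10 / 9 * HY.sq a + 10 * HY.sq b := by
  unfold HY.sq
  rw [Finset.mul_sum, Finset.mul_sum, ← Finset.sum_add_distrib]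
  refine Finset.sum_le_sum fun i _ => ?_
  rw [Pi.add_apply]
  nlinarith [sq_nonneg (a i / 3 - 3 * b i)]

theorem sq_le_norm (a : V n) : HY.sq a ≤ n * ‖a‖ ^ 2 := by
  unfold HY.sq
  calc ∑ j, a j ^ 2 ≤ ∑ _j : Fin n, ‖a‖ ^ 2 := Finset.sum_le_sum fun i _ => by
        have h := norm_le_pi_norm a i
        rw [Real.norm_eq_abs] at h
        calc a i ^ 2 = |a i| ^ 2 := (sq_abs _).symm
          _ ≤ ‖a‖ ^ 2 := pow_le_pow_left₀ (abs_nonneg _) h 2
    _ = n * ‖a‖ ^ 2 := by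
        rw [Finset.sum_const, Finset.card_univ, Fintype.card_fin, nsmul_eq_mul]

theorem sq_smul (c : ℝ) (a : V n) : HY.sq (c • a) = c ^ 2 * HY.sq a := by
  unfold HY.sq
  rw [Finset.mul_sum]
  refine Finset.sum_congr rfl fun i _ => ?_
  rw [Pi.smul_apply, smul_eq_mul, mul_pow]

theorem sq_neg' (a : V n) : HY.sq (-a) = HY.sq a := by
  unfold HY.sq
  refine Finset.sum_congr rfl fun i _ => ?_
  rw [Pi.neg_apply, neg_sq]

/-- The bound of `w`. -/
theorem sq_w {δ : ℝ} (hδ : δ ≤ 1 / (20 * (n + 1))) {w : V n → V n} (h : Cl 1 δ w) (x : V n) :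
    HY.sq (w x) ≤ 1 / 400 := by
  have h1 := h 0 (Nat.zero_le _) x
  rw [norm_iteratedFDeriv_zero] at h1
  have h2 : ‖w x‖ ≤ 1 / (20 * (n + 1)) := h1.trans hδ
  have h3 : ‖w x‖ ^ 2 ≤ (1 / (20 * (n + 1))) ^ 2 := pow_le_pow_left₀ (norm_nonneg _) h2 2
  refine (sq_le_norm _).trans ?_
  calc (n : ℝ) * ‖w x‖ ^ 2 ≤ n * (1 / (20 * (n + 1))) ^ 2 :=
        mul_le_mul_of_nonneg_left h3 (Nat.cast_nonneg _)
    _ ≤ 1 / 400 := by
        have hn : (0 : ℝ) ≤ n := Nat.cast_nonneg _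
        rw [div_pow, one_pow, mul_one_div, div_le_div_iff₀ (by positivity) (by norm_num)]
        nlinarith [mul_nonneg hn hn]

theorem rowGG : RowGG := by
  intro n
  refine ⟨1 / (20 * (n + 1)), by positivity, fun w K D hw => ⟨fun x hx => ?_, fun x hx => ?_,
    fun X hX => ?_⟩⟩
  · have h1 : HY.sq x < 1 := hx
    have h2 := sq_add_le x (w x)
    have h3 := sq_w (le_refl _) hw x
    unfold rr
    rw [sq_smul]
    linarith
  · have h1 : HY.sq x < 1 := hx
    have h2 := sq_add_le x (w x)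
    have h3 := sq_w (le_refl _) hw x
    show HY.sq _ < 1
    rw [sq_smul]
    linarith
  · have h1 : HY.sq X < 1 := hX
    have h2 : K ((3 / 2 : ℝ) • X) = (3 / 2 : ℝ) • X + -(w (K ((3 / 2 : ℝ) • X))) := by
      have := D.r ((3 / 2 : ℝ) • X)
      rw [← sub_eq_add_neg]
      exact eq_sub_of_add_eq this
    have h3 := sq_add_le ((3 / 2 : ℝ) • X) (-(w (K ((3 / 2 : ℝ) • X))))
    rw [← h2, sq_neg', sq_smul] at h3
    have h4 := sq_w (le_refl _) hw (K ((3 / 2 : ℝ) • X))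
    show HY.sq _ < (7 / 4 : ℝ) ^ 2
    linarith

/-! ## Change of variables -/

theorem map_le {T S : V n → V n} {L : ℝ≥0} (hT : Measurable T) (hST : ∀ x, S (T x) = x)
    (hTS : ∀ x, T (S x) = x) (hS : LipschitzWith L S) :
    Measure.map T (volume : Measure (V n)) ≤ ((L : ℝ≥0∞) ^ n) • (volume : Measure (V n)) := by
  refine Measure.le_iff.2 fun A hA => ?_
  rw [Measure.map_apply hT hA, Measure.smul_apply, smul_eq_mul]
  have e : T ⁻¹' A = S '' A := by
    ext x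
    constructor
    · intro hx
      exact ⟨T x, hx, hST x⟩
    · rintro ⟨y, hy, rfl⟩
      show T (S y) ∈ A
      rw [hTS]; exact hy
  rw [e]
  have h1 := hS.hausdorffMeasure_image_le (d := (n : ℝ)) (Nat.cast_nonneg _) A
  have h2 : (μH[(n : ℝ)] : Measure (V n)) = volume := by
    have := hausdorffMeasure_pi_real (ι := Fin n)
    rwa [Fintype.card_fin] at this
  rw [h2, ENNReal.rpow_natCast] at h1
  exact h1

theorem map_prod_le {T₁ T₂ S₁ S₂ : V n → V n} {L : ℝ≥0} (h₁ : Measurable T₁) (h₂ : Measurable T₂)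
    (a₁ : ∀ x, S₁ (T₁ x) = x) (b₁ : ∀ x, T₁ (S₁ x) = x) (c₁ : LipschitzWith L S₁)
    (a₂ : ∀ x, S₂ (T₂ x) = x) (b₂ : ∀ x, T₂ (S₂ x) = x) (c₂ : LipschitzWith L S₂) :
    Measure.map (Prod.map T₁ T₂) (volume : Measure (VV n)) ≤
      ((L ^ n * L ^ n : ℝ≥0) : ℝ≥0∞) • (volume : Measure (VV n)) := by
  have e : (volume : Measure (VV n)) = (volume : Measure (V n)).prod volume := rfl
  rw [e, ← Measure.map_prod_map _ _ h₁ h₂]
  have h3 := map_le h₁ a₁ b₁ c₁
  have h4 := map_le h₂ a₂ b₂ c₂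
  refine (Measure.prod_mono h3 h4).trans (le_of_eq ?_)
  rw [Measure.prod_smul_left, Measure.prod_smul_right, smul_smul]
  push_cast
  rfl

/-- Change of variables for nonnegative functions. -/
theorem cov {Φ : VV n → VV n} (hΦ : Measurable Φ) {C : ℝ≥0}
    (h : Measure.map Φ (volume : Measure (VV n)) ≤ (C : ℝ≥0∞) • volume) {A B : Set (VV n)}
    (hB : MeasurableSet B) (hAB : ∀ z ∈ A, Φ z ∈ B) {g : VV n → ℝ} (h0 : ∀ z ∈ B, 0 ≤ g z)
    (hg : IntegrableOn g B) : IntegrableOn (fun z => g (Φ z)) A ∧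
      ∫ z in A, g (Φ z) ≤ C * ∫ z in B, g z := by
  have h1 : Measure.map Φ (volume.restrict A) ≤ (C : ℝ≥0∞) • (volume.restrict B) := by
    calc Measure.map Φ (volume.restrict A) ≤ Measure.map Φ (volume.restrict (Φ ⁻¹' B)) :=
          Measure.map_mono (Measure.restrict_mono_set _ fun z hz => hAB z hz) hΦ
      _ = (Measure.map Φ volume).restrict B := (Measure.restrict_map hΦ hB).symm
      _ ≤ ((C : ℝ≥0∞) • volume).restrict B := Measure.restrict_mono (le_refl _) h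
      _ = _ := Measure.restrict_smul _ _ _
  have h2 : Integrable g ((C : ℝ≥0∞) • (volume.restrict B)) :=
    Integrable.smul_measure hg ENNReal.coe_ne_top
  have h3 : Integrable g (Measure.map Φ (volume.restrict A)) := h2.mono_measure h1
  have h4 : Integrable (g ∘ Φ) (volume.restrict A) :=
    (integrable_map_measure h3.aestronglyMeasurable hΦ.aemeasurable).1 h3
  refine ⟨h4, ?_⟩
  have h5 : ∫ z in A, g (Φ z) = ∫ z, g z ∂(Measure.map Φ (volume.restrict A)) :=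
    (integral_map hΦ.aemeasurable h3.aestronglyMeasurable).symm
  have h6 : 0 ≤ᵐ[(C : ℝ≥0∞) • (volume.restrict B)] g := by
    refine Measure.ae_smul_measure ?_ _
    exact (ae_restrict_iff' hB).2 (Eventually.of_forall h0)
  rw [h5]
  refine (integral_mono_measure h1 h6 h2).trans (le_of_eq ?_)
  rw [integral_smul_measure]
  rfl

theorem lip_w {w : V n → V n} (hw : ContDiff ℝ ∞ w) (h : Cl 1 (1 / 2) w) (a b : V n) :
    ‖w a - w b‖ ≤ 1 / 2 * ‖a - b‖ :=
  (convex_univ (𝕜 := ℝ) (E := V n)).norm_image_sub_le_of_norm_fderiv_le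
    (fun z _ => hw.differentiable (by simp) z) (fun z _ => by
      have := h 1 (le_refl _) z
      rwa [norm_iteratedFDeriv_one] at this) (mem_univ b) (mem_univ a)

theorem lip_T {w K : V n → V n} (D : Dif univ w K) (h : Cl 1 (1 / 2) w) :
    LipschitzWith 3 (fun x => (2 / 3 : ℝ) • (x + w x)) := by
  refine LipschitzWith.of_dist_le_mul fun a b => ?_
  rw [dist_eq_norm, dist_eq_norm, ← smul_sub, norm_smul]
  have h1 := lip_w D.sw h a b
  have h2 : a + w a - (b + w b) = (a - b) + (w a - w b) := by abel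
  rw [h2]
  have h3 := norm_add_le (a - b) (w a - w b)
  have h4 : ‖(2 / 3 : ℝ)‖ = 2 / 3 := by rw [Real.norm_eq_abs, abs_of_pos (by norm_num)]
  rw [h4]
  have h5 : ((3 : ℝ≥0) : ℝ) = 3 := rfl
  rw [h5]
  nlinarith [norm_nonneg (a - b)]

theorem lip_S {w K : V n → V n} (D : Dif univ w K) (h : Cl 1 (1 / 2) w) :
    LipschitzWith 3 (fun X => K ((3 / 2 : ℝ) • X)) := by
  refine LipschitzWith.of_dist_le_mul fun a b => ?_
  rw [dist_eq_norm, dist_eq_norm]
  set a' := (3 / 2 : ℝ) • a with ha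
  set b' := (3 / 2 : ℝ) • b with hb
  have h1 := lip_w D.sw h (K a') (K b')
  have h2 : K a' - K b' = (a' - b') - (w (K a') - w (K b')) := by
    have e1 := D.r a'
    have e2 := D.r b'
    calc K a' - K b' = ((K a' + w (K a')) - (K b' + w (K b'))) - (w (K a') - w (K b')) := by abel
      _ = _ := by rw [e1, e2]
  have h3 : ‖K a' - K b'‖ ≤ ‖a' - b'‖ + ‖w (K a') - w (K b')‖ := by
    conv_lhs => rw [h2]
    exact norm_sub_le _ _
  have h4 : ‖a' - b'‖ = 3 / 2 * ‖a - b‖ := by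
    rw [ha, hb, ← smul_sub, norm_smul, Real.norm_eq_abs, abs_of_pos (by norm_num)]
  have h5 : ((3 : ℝ≥0) : ℝ) = 3 := rfl
  rw [h5]
  linarith

theorem rowMM : RowMM := by
  intro n
  obtain ⟨δG, hδG, hG⟩ := rowGG n
  refine ⟨((3 ^ n * 3 ^ n : ℝ≥0) : ℝ), min δG (1 / 2), by positivity, by positivity, ?_⟩
  intro w₁ w₂ K₁ K₂ D₁ D₂ h₁ h₂
  have mono : ∀ {w : V n → V n} {a b : ℝ}, Cl 1 a w → a ≤ b → Cl 1 b w :=
    fun h hab l hl x => (h l hl x).trans hab
  have g₁ := hG w₁ K₁ D₁ (mono h₁ (min_le_left _ _))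
  have g₂ := hG w₂ K₂ D₂ (mono h₂ (min_le_left _ _))
  have i₁ : Cl 1 (1 / 2) w₁ := mono h₁ (min_le_right _ _)
  have i₂ : Cl 1 (1 / 2) w₂ := mono h₂ (min_le_right _ _)
  have a1 : ∀ {w K : V n → V n}, Dif univ w K → ∀ x, K ((3 / 2 : ℝ) • ((2 / 3 : ℝ) • (x + w x))) = x := by
    intro w K D x
    rw [smul_smul]
    norm_num
    exact D.l x
  have a2 : ∀ {w K : V n → V n}, Dif univ w K → ∀ X,
      (2 / 3 : ℝ) • (K ((3 / 2 : ℝ) • X) + w (K ((3 / 2 : ℝ) • X))) = X := by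
    intro w K D x
    rw [D.r, smul_smul]
    norm_num
  have m1 := map_prod_le (T₁ := fun X => K₁ ((3 / 2 : ℝ) • X)) (T₂ := fun X => K₂ ((3 / 2 : ℝ) • X))
    (lip_S D₁ i₁).continuous.measurable (lip_S D₂ i₂).continuous.measurable (a2 D₁) (a1 D₁)
    (lip_T D₁ i₁) (a2 D₂) (a1 D₂) (lip_T D₂ i₂)
  have m2 := map_prod_le (T₁ := fun x => (2 / 3 : ℝ) • (x + w₁ x))
    (T₂ := fun x => (2 / 3 : ℝ) • (x + w₂ x))
    (lip_T D₁ i₁).continuous.measurable (lip_T D₂ i₂).continuous.measurable (a1 D₁) (a2 D₁)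
    (lip_S D₁ i₁) (a1 D₂) (a2 D₂) (lip_S D₂ i₂)
  have mUs : MeasurableSet (Us n (7 / 4)) :=
    ((isOpen_lt continuous_sq continuous_const).prod
      (isOpen_lt continuous_sq continuous_const) : IsOpen (Us n (7 / 4))).measurableSet
  have mUn : MeasurableSet (Un n) := isOpen_Un.measurableSet
  refine ⟨fun g h0 hg => ?_, fun G h0 hg R hR _ => ?_⟩
  · exact cov (Φ := Prod.map (fun X => K₁ ((3 / 2 : ℝ) • X)) (fun X => K₂ ((3 / 2 : ℝ) • X)))
      ((lip_S D₁ i₁).continuous.measurable.prodMap (lip_S D₂ i₂).continuous.measurable) m1 mUs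
      (fun z hz => ⟨g₁.2.2 _ hz.1, g₂.2.2 _ hz.2⟩) h0 hg
  · exact cov (Φ := Prod.map (fun x => (2 / 3 : ℝ) • (x + w₁ x))
      (fun x => (2 / 3 : ℝ) • (x + w₂ x)))
      ((lip_T D₁ i₁).continuous.measurable.prodMap (lip_T D₂ i₂).continuous.measurable) m2 mUn
      (fun z hz => ⟨g₁.2.1 _ (hR hz).1, g₂.2.1 _ (hR hz).2⟩) h0 hg

end Vale.Agent.P088.PJ.H904
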