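import Vale.Agent.P088.R2.H904.V.Mm

/-!
# P088, row WS: the weight in the old and the new coordinates
-/

open MeasureTheory Set Filter
open scoped ContDiff Matrix Topology NNReal ENNReal

noncomputable section

namespace Vale.Agent.P088.PJ.H904

open Vale.Agent.P088.LR
open Vale.Agent.P088.HY

variable {n : ℕ}

theorem norm_le_sq (a : V n) : ‖a‖ ^ 2 ≤ HY.sq a := by
  have h0 : 0 ≤ HY.sq a := sq_nonneg' a
  have h1 : ‖a‖ ≤ √(HY.sq a) := by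
    refine (pi_norm_le_iff_of_nonneg (Real.sqrt_nonneg _)).2 fun i => ?_
    rw [Real.norm_eq_abs]
    refine Real.abs_le_sqrt ?_
    exact Finset.single_le_sum (f := fun j => a j ^ 2) (fun j _ => sq_nonneg _) (Finset.mem_univ i)
  calc ‖a‖ ^ 2 ≤ √(HY.sq a) ^ 2 := pow_le_pow_left₀ (norm_nonneg _) h1 2
    _ = HY.sq a := Real.sq_sqrt h0

theorem sq_add_two (a b : V n) : HY.sq (a + b) ≤ 2 * HY.sq a + 2 * HY.sq b := by
  unfold HY.sq
  rw [Finset.mul_sum, Finset.mul_sum, ← Finset.sum_add_distrib]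
  refine Finset.sum_le_sum fun i _ => ?_
  rw [Pi.add_apply]
  nlinarith [sq_nonneg (a i - b i)]

/-- The difference of the two maps. -/
theorem sq_ww {δ : ℝ} (hδ : δ ≤ 1 / (20 * (n + 1))) {w₁ w₂ : V n → V n} (sw : ContDiff ℝ ∞ w₁)
    (h : Cl 1 δ w₁) {η : ℝ} (hη : ∀ x, ‖w₁ x - w₂ x‖ ≤ η) (x y : V n) :
    HY.sq (w₁ x - w₂ y) ≤ 1 / 200 * HY.sq (x - y) + 2 * n * η ^ 2 := by
  have hn : (0 : ℝ) ≤ n := Nat.cast_nonneg _
  set L : ℝ := 1 / (20 * (n + 1)) with hL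
  have hL0 : 0 ≤ L := by positivity
  have h1 : ‖w₁ x - w₁ y‖ ≤ L * ‖x - y‖ := by
    refine (convex_univ (𝕜 := ℝ) (E := V n)).norm_image_sub_le_of_norm_fderiv_le
      (fun z _ => sw.differentiable (by simp) z) (fun z _ => ?_) (mem_univ y) (mem_univ x)
    have := h 1 (le_refl _) z
    rw [norm_iteratedFDeriv_one] at this
    exact this.trans hδ
  have h2 : ‖w₁ x - w₂ y‖ ≤ L * ‖x - y‖ + η := by
    have e : w₁ x - w₂ y = (w₁ x - w₁ y) + (w₁ y - w₂ y) := by abel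
    rw [e]
    exact (norm_add_le _ _).trans (add_le_add h1 (hη y))
  have hη0 : 0 ≤ η := (norm_nonneg _).trans (hη y)
  have h3 : ‖w₁ x - w₂ y‖ ^ 2 ≤ 2 * (L ^ 2 * ‖x - y‖ ^ 2) + 2 * η ^ 2 := by
    calc ‖w₁ x - w₂ y‖ ^ 2 ≤ (L * ‖x - y‖ + η) ^ 2 := pow_le_pow_left₀ (norm_nonneg _) h2 2
      _ ≤ _ := by nlinarith [sq_nonneg (L * ‖x - y‖ - η)]
  have h4 := norm_le_sq (x - y)
  have h5 : (n : ℝ) * (2 * L ^ 2) ≤ 1 / 200 := by
    rw [hL, div_pow, one_pow, mul_one_div, mul_div_assoc', div_le_div_iff₀ (by positivity)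
      (by norm_num)]
    nlinarith [mul_nonneg hn hn]
  refine (sq_le_norm _).trans ?_
  calc (n : ℝ) * ‖w₁ x - w₂ y‖ ^ 2 ≤ n * (2 * (L ^ 2 * ‖x - y‖ ^ 2) + 2 * η ^ 2) :=
        mul_le_mul_of_nonneg_left h3 hn
    _ = (n * (2 * L ^ 2)) * ‖x - y‖ ^ 2 + 2 * n * η ^ 2 := by ring
    _ ≤ 1 / 200 * HY.sq (x - y) + 2 * n * η ^ 2 := by
        have h6 := mul_le_mul h5 h4 (by positivity) (by norm_num)
        linarith

theorem uu_sub (Z : VV n) : uu Z - 1 = HY.sq (Z.1 - Z.2) / (2 * rr Z.1 * rr Z.2) := by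
  unfold uu; ring

/-- The boundary factor is absorbed by the weight. -/
theorem bdry {r τ u : ℝ} (hr : 0 < r) (hτ : 1 ≤ τ) (hu : 0 ≤ u)
    (h : r < 1 / 10 → 1 / (4 * r) ≤ u) : (r ^ 2)⁻¹ * Real.exp (-(τ * u)) ≤ 100 := by
  have hpos : 0 ≤ τ * u := mul_nonneg (by linarith) hu
  rcases le_or_gt (1 / 10) r with hr1 | hr1
  · have a1 : (r ^ 2)⁻¹ ≤ 100 := by
      rw [inv_le_comm₀ (by positivity) (by norm_num)]
      nlinarith
    have a2 : Real.exp (-(τ * u)) ≤ 1 := Real.exp_le_one_iff.2 (by linarith)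
    calc _ ≤ (100 : ℝ) * 1 := mul_le_mul a1 a2 (Real.exp_pos _).le (by norm_num)
      _ = 100 := by norm_num
  · have a3 : 1 / (4 * r) ≤ τ * u := by
      have a5 : u ≤ τ * u := by nlinarith
      linarith [h hr1]
    set t := 1 / (4 * r) with ht
    have ht0 : 0 < t := by positivity
    have a6 : t ^ 2 / 2 ≤ Real.exp (τ * u) := by
      have h7 := Real.quadratic_le_exp_of_nonneg ht0.le
      have h8 : Real.exp t ≤ Real.exp (τ * u) := Real.exp_le_exp.2 a3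
      linarith
    have a7 : (r ^ 2)⁻¹ = 16 * t ^ 2 := by
      rw [ht]; field_simp; norm_num
    rw [a7, Real.exp_neg]
    have a8 : 0 < Real.exp (τ * u) := Real.exp_pos _
    rw [mul_inv_le_iff₀ a8]
    linarith

/-- The near diagonal set. -/
theorem near {L η τ : ℝ} (hL : L = 1 / (20 * ((n : ℝ) + 1))) {w₁ w₂ K₁ : V n → V n}
    (D₁ : Dif univ w₁ K₁) (i₁ : Cl 1 L w₁) (hw : ∀ x, ‖w₁ x - w₂ x‖ ≤ η) (hτ : 1 ≤ τ)
    (hnη : τ * (n * η ^ 2) ≤ n) {z : VV n} (hX0 : 1 / 5 ≤ rr (Ph w₁ w₂ z).1)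
    (hY0 : 1 / 5 ≤ rr (Ph w₁ w₂ z).2) (hzn : τ * HY.sq (z.1 - z.2) ≤ 16 * n) :
    Real.exp (-(650 * n)) ≤ wT τ (Ph w₁ w₂ z) := by
  have hn : (0 : ℝ) ≤ n := Nat.cast_nonneg _
  have b1 : HY.sq ((Ph w₁ w₂ z).1 - (Ph w₁ w₂ z).2) ≤ HY.sq (z.1 - z.2) + 10 * (n * η ^ 2) := by
    have e : (Ph w₁ w₂ z).1 - (Ph w₁ w₂ z).2 =
        (2 / 3 : ℝ) • ((z.1 - z.2) + (w₁ z.1 - w₂ z.2)) := by
      unfold Ph
      simp only
      rw [← smul_sub]
      congr 1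
      abel
    rw [e, sq_smul]
    have a1 := sq_add_le (z.1 - z.2) (w₁ z.1 - w₂ z.2)
    have a2 := sq_ww (le_of_eq hL) D₁.sw i₁ hw z.1 z.2
    have a3 : 0 ≤ HY.sq (z.1 - z.2) := sq_nonneg' _
    have a4 : 0 ≤ (n : ℝ) * η ^ 2 := by positivity
    linarith
  have hX1 : rr (Ph w₁ w₂ z).1 ≤ 1 / 2 := rr_le _
  have hY1 : rr (Ph w₁ w₂ z).2 ≤ 1 / 2 := rr_le _
  have hu := uu_sub (Ph w₁ w₂ z)
  have h3 : 0 ≤ HY.sq ((Ph w₁ w₂ z).1 - (Ph w₁ w₂ z).2) := sq_nonneg' _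
  unfold wT
  generalize rr (Ph w₁ w₂ z).1 = a at *
  generalize rr (Ph w₁ w₂ z).2 = b at *
  generalize HY.sq ((Ph w₁ w₂ z).1 - (Ph w₁ w₂ z).2) = S at *
  generalize uu (Ph w₁ w₂ z) = u at *
  have b2 : τ * S ≤ 26 * n := by
    have := mul_le_mul_of_nonneg_left b1 (by linarith : (0 : ℝ) ≤ τ)
    linarith
  have h2 : 1 / 25 ≤ a * b := by nlinarith
  have b3 : 2 * τ * (u - 1) ≤ 650 * n := by
    rw [hu]
    have h1 : S / (2 * a * b) ≤ S * (25 / 2) := by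
      rw [div_le_iff₀ (by positivity)]
      nlinarith [mul_nonneg h3 (sub_nonneg.2 h2)]
    have h4 := mul_le_mul_of_nonneg_left h1 (by linarith : (0 : ℝ) ≤ τ)
    linarith
  have hp : 0 < (a * b) ^ 2 := by positivity
  rw [le_div_iff₀ hp]
  have h5 : (a * b) ^ 2 ≤ 1 := by
    have h6 : a * b ≤ 1 := by nlinarith
    have h0 : 0 ≤ a * b := by linarith
    nlinarith
  calc Real.exp (-(650 * n)) * (a * b) ^ 2 ≤ Real.exp (-(650 * n)) * 1 :=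
        mul_le_mul_of_nonneg_left h5 (Real.exp_pos _).le
    _ ≤ Real.exp (-(2 * τ * (u - 1))) := by
        rw [mul_one]
        exact Real.exp_le_exp.2 (by linarith)

/-- The geometry for the first half. -/
theorem far {L η τ : ℝ} (hL : L = 1 / (20 * ((n : ℝ) + 1))) {w₁ w₂ K₁ K₂ : V n → V n}
    (D₁ : Dif univ w₁ K₁) (D₂ : Dif univ w₂ K₂) (i₁ : Cl 1 L w₁) (i₂ : Cl 1 L w₂)
    (hw : ∀ x, ‖w₁ x - w₂ x‖ ≤ η) (hτ : 1 ≤ τ)
    (hnη : τ * (n * η ^ 2) ≤ n) {Z : VV n} (hy : (Ps K₁ K₂ Z).2 ∈ bl0 n) :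
    HY.sq Z.2 ≤ 7 / 50 ∧
      1 / 3 * (τ * HY.sq ((Ps K₁ K₂ Z).1 - (Ps K₁ K₂ Z).2)) - 9 * n ≤
        τ * HY.sq (Z.1 - Z.2) := by
  have hn : (0 : ℝ) ≤ n := Nat.cast_nonneg _
  have ex : (3 / 2 : ℝ) • Z.1 = (Ps K₁ K₂ Z).1 + w₁ (Ps K₁ K₂ Z).1 := (D₁.r _).symm
  have ey : (3 / 2 : ℝ) • Z.2 = (Ps K₁ K₂ Z).2 + w₂ (Ps K₁ K₂ Z).2 := (D₂.r _).symm
  generalize (Ps K₁ K₂ Z).1 = x at *
  generalize (Ps K₁ K₂ Z).2 = y at *
  have sY : HY.sq Z.2 ≤ 7 / 50 := by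
    have a1 := sq_add_le y (w₂ y)
    rw [← ey, sq_smul] at a1
    have a2 := sq_w (le_of_eq hL) i₂ y
    have a3 : HY.sq y ≤ 1 / 4 := hy
    linarith
  refine ⟨sY, ?_⟩
  have b1 : HY.sq (x - y) ≤ 5 / 2 * HY.sq (Z.1 - Z.2) +
      (1 / 20 * HY.sq (x - y) + 20 * (n * η ^ 2)) := by
    have e : x - y = (3 / 2 : ℝ) • (Z.1 - Z.2) + -(w₁ x - w₂ y) := by
      rw [smul_sub, ex, ey]; abel
    have a1 := sq_add_le ((3 / 2 : ℝ) • (Z.1 - Z.2)) (-(w₁ x - w₂ y))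
    rw [← e, sq_neg', sq_smul] at a1
    have a2 := sq_ww (le_of_eq hL) D₁.sw i₁ hw x y
    linarith
  have hd0 : 0 ≤ HY.sq (x - y) := sq_nonneg' _
  have b2 : 1 / 3 * HY.sq (x - y) - 9 * (n * η ^ 2) ≤ HY.sq (Z.1 - Z.2) := by
    have : 0 ≤ (n : ℝ) * η ^ 2 := by positivity
    linarith
  have := mul_le_mul_of_nonneg_left b2 (by linarith : (0 : ℝ) ≤ τ)
  linarith

/-- The scalar inequalities for the first half. -/
theorem scal {N a b S d τ u : ℝ} (hN : 0 ≤ N) (ha : 0 < a) (ha1 : a ≤ 1 / 2) (hb : 2 / 5 ≤ b)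
    (hb1 : b ≤ 1 / 2) (hS : 0 ≤ S) (hd : 0 ≤ d) (hτ : 1 ≤ τ) (hu : u - 1 = S / (2 * a * b))
    (hSa : a < 1 / 10 → 1 / 4 ≤ S) (hSd : 1 / 3 * (τ * d) - 9 * N ≤ τ * S) :
    a ^ 4 * (Real.exp (-(2 * τ * (u - 1))) / (a * b) ^ 2) ≤
      25 * Real.exp (650 * N) * Real.exp (-(2 / 3 * τ * d)) ∧
    b ^ 4 * (Real.exp (-(2 * τ * (u - 1))) / (a * b) ^ 2) ≤
      25 * Real.exp (650 * N) * Real.exp (-(2 / 3 * τ * d)) := by
  have hb0 : 0 < b := by linarith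
  have u1 : S / a ≤ u - 1 := by
    rw [hu]
    refine div_le_div_of_nonneg_left hS (by positivity) ?_
    nlinarith
  have u2 : 2 * S ≤ u - 1 := by
    refine le_trans ?_ u1
    rw [le_div_iff₀ ha]
    nlinarith
  have u0 : 0 ≤ u - 1 := by linarith
  have u3 : 2 * (τ * S) ≤ τ * (u - 1) := by
    have := mul_le_mul_of_nonneg_left u2 (by linarith : (0 : ℝ) ≤ τ)
    linarith
  have hτd : 0 ≤ τ * d := mul_nonneg (by linarith) hd
  have u4 : 0 ≤ τ * (u - 1) := mul_nonneg (by linarith) u0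
  have f2 : Real.exp (-(τ * (u - 1))) ≤
      Real.exp (650 * N) * Real.exp (-(2 / 3 * τ * d)) := by
    rw [← Real.exp_add]
    exact Real.exp_le_exp.2 (by linarith)
  have f1 : Real.exp (-(2 * τ * (u - 1))) ≤
      Real.exp (650 * N) * Real.exp (-(2 / 3 * τ * d)) := by
    refine le_trans (Real.exp_le_exp.2 ?_) f2
    linarith
  have hY2 : (b ^ 2)⁻¹ ≤ 25 / 4 := by
    rw [inv_le_comm₀ (by positivity) (by norm_num)]
    nlinarith
  constructor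
  · have e : a ^ 4 * (Real.exp (-(2 * τ * (u - 1))) / (a * b) ^ 2) = a ^ 2 * (b ^ 2)⁻¹ *
        Real.exp (-(2 * τ * (u - 1))) := by
      field_simp
    rw [e]
    have g1 : a ^ 2 * (b ^ 2)⁻¹ ≤ 25 := by
      have : a ^ 2 ≤ 1 := by nlinarith
      calc a ^ 2 * (b ^ 2)⁻¹ ≤ 1 * (25 / 4) :=
            mul_le_mul this hY2 (by positivity) zero_le_one
        _ ≤ 25 := by norm_num
    calc a ^ 2 * (b ^ 2)⁻¹ * Real.exp (-(2 * τ * (u - 1)))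
        ≤ 25 * (Real.exp (650 * N) * Real.exp (-(2 / 3 * τ * d))) :=
          mul_le_mul g1 f1 (Real.exp_pos _).le (by norm_num)
      _ = _ := by ring
  · have h3 : Real.exp (-(2 * τ * (u - 1))) =
        Real.exp (-(τ * (u - 1))) * Real.exp (-(τ * (u - 1))) := by
      rw [← Real.exp_add]; congr 1; ring
    have e : b ^ 4 * (Real.exp (-(2 * τ * (u - 1))) / (a * b) ^ 2) = b ^ 2 * ((a ^ 2)⁻¹ *
        Real.exp (-(τ * (u - 1)))) * Real.exp (-(τ * (u - 1))) := by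
      rw [h3]
      field_simp
    have g1 : (a ^ 2)⁻¹ * Real.exp (-(τ * (u - 1))) ≤ 100 := by
      refine bdry ha hτ u0 fun h => ?_
      refine le_trans ?_ u1
      rw [div_le_div_iff₀ (by positivity) ha]
      have := hSa h
      nlinarith
    rw [e]
    have g3 : b ^ 2 * ((a ^ 2)⁻¹ * Real.exp (-(τ * (u - 1)))) ≤ 25 := by
      have : b ^ 2 ≤ 1 / 4 := by nlinarith
      calc _ ≤ (1 / 4 : ℝ) * 100 := mul_le_mul this g1 (by positivity) (by norm_num)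
        _ = 25 := by norm_num
    calc _ ≤ 25 * (Real.exp (650 * N) * Real.exp (-(2 / 3 * τ * d))) :=
          mul_le_mul g3 f2 (Real.exp_pos _).le (by norm_num)
      _ = _ := by ring

theorem rowWT : RowWT := by
  intro n
  have hn : (0 : ℝ) ≤ n := Nat.cast_nonneg _
  obtain ⟨L, hL⟩ : ∃ L : ℝ, L = 1 / (20 * ((n : ℝ) + 1)) := ⟨_, rfl⟩
  have hL0 : 0 < L := by rw [hL]; positivity
  obtain ⟨δG, hδG, hG⟩ := rowGG n
  refine ⟨25 * Real.exp (650 * n), 2 / 3, min L δG, by positivity, by norm_num,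
    lt_min hL0 hδG, ?_⟩
  intro w₁ w₂ K₁ K₂ D₁ D₂ h₁ h₂ η τ hη hw hτ hτη
  have mono : ∀ {w : V n → V n} {a b : ℝ}, Cl 1 a w → a ≤ b → Cl 1 b w :=
    fun h hab l hl x => (h l hl x).trans hab
  have i₁ : Cl 1 L w₁ := mono h₁ (min_le_left _ _)
  have i₂ : Cl 1 L w₂ := mono h₂ (min_le_left _ _)
  have g₁ := hG w₁ K₁ D₁ (mono h₁ (min_le_right _ _))
  have g₂ := hG w₂ K₂ D₂ (mono h₂ (min_le_right _ _))
  have hτη2 : τ * η ^ 2 ≤ 1 := by
    have h1 : η ≤ 1 := by nlinarith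
    calc τ * η ^ 2 = (τ * η) * η := by ring
      _ ≤ 1 * 1 := mul_le_mul hτη h1 hη zero_le_one
      _ = 1 := one_mul 1
  have hnη : τ * (n * η ^ 2) ≤ n := by
    calc τ * ((n : ℝ) * η ^ 2) = (n : ℝ) * (τ * η ^ 2) := by ring
      _ ≤ (n : ℝ) * 1 := mul_le_mul_of_nonneg_left hτη2 hn
      _ = (n : ℝ) := mul_one _
  constructor
  · intro Z hZ hy
    obtain ⟨sY, hS⟩ := far hL D₁ D₂ i₁ i₂ hw hτ hnη hy
    have hY0 : 2 / 5 ≤ rr Z.2 := by unfold rr; linarith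
    refine scal hn (rr_pos hZ.1) (rr_le _) hY0 (rr_le _) (sq_nonneg' _) (sq_nonneg' _) hτ
      (uu_sub Z) (fun hr => ?_) hS
    have a1 : 4 / 5 ≤ HY.sq Z.1 := by
      have := sq_eq Z.1
      linarith
    have e : Z.1 = (Z.1 - Z.2) + Z.2 := by abel
    have a3 := sq_add_two (Z.1 - Z.2) Z.2
    rw [← e] at a3
    linarith
  · intro z hz hzn
    have b4 := near hL D₁ i₁ hw hτ hnη (z := z) (g₁.1 _ hz.1) (g₂.1 _ hz.2) hzn
    calc (1 : ℝ) = Real.exp (650 * n) * Real.exp (-(650 * n)) := by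
          rw [← Real.exp_add]; simp
      _ ≤ Real.exp (650 * n) * wT τ (Ph w₁ w₂ z) :=
          mul_le_mul_of_nonneg_left b4 (Real.exp_pos _).le
      _ ≤ 25 * Real.exp (650 * n) * wT τ (Ph w₁ w₂ z) := by
          have h1 : 0 ≤ Real.exp (650 * n) * wT τ (Ph w₁ w₂ z) := mul_nonneg (Real.exp_pos _).le
            (div_nonneg (Real.exp_pos _).le (sq_nonneg _))
          linarith

end Vale.Agent.P088.PJ.H904
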