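import Vale.Agent.P088.R2.H904.V.Main
import Vale.Agent.P088.R2.H904.V.Wt
import Vale.Agent.P088.R2.H724.V.Dic

/-!
# P088, row WS
-/

namespace Vale.Agent.P088.PJ.H904

/-- Row WS. -/
theorem rowWS (hS : HY.RowSOLG) (hH : RowHC) : RowWS :=
  rowWS1 (rowWSR hS hH rowGG rowMM rowWT)

end Vale.Agent.P088.PJ.H904
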